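import Vale.Agent.Lib.P254.Defs

open MeasureTheory Set

namespace Vale.Agent.Lib.P254

variable {n : ℕ}

/-- The affine map `x ↦ B x + c`. -/
def affMap (B : Matrix (Fin n) (Fin n) ℝ) (c : Fin n → ℝ) : (Fin n → ℝ) → (Fin n → ℝ) :=
  fun x => B.mulVec x + c

lemma continuous_affMap (B : Matrix (Fin n) (Fin n) ℝ) (c : Fin n → ℝ) :
    Continuous (affMap B c) := by
  unfold affMap
  exact (Continuous.matrix_mulVec continuous_const continuous_id).add continuous_const

lemma affMap_injective (B : Matrix (Fin n) (Fin n) ℝ) (hB : B.det ≠ 0) (c : Fin n → ℝ) :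
    Function.Injective (affMap B c) := by
  intro x y h
  simp only [affMap, add_left_inj] at h
  have hu : IsUnit B := (Matrix.isUnit_iff_isUnit_det B).2 (isUnit_iff_ne_zero.2 hB)
  exact (Matrix.mulVec_injective_iff_isUnit.2 hu) h

lemma integral_image_affMap (B : Matrix (Fin n) (Fin n) ℝ) (hB : B.det ≠ 0) (c : Fin n → ℝ)
    {s : Set (Fin n → ℝ)} (hs : MeasurableSet s) (g : (Fin n → ℝ) → ℝ) :
    ∫ x in affMap B c '' s, g x = |B.det| * ∫ x in s, g (affMap B c x) := by
  have hder : ∀ x ∈ s, HasFDerivWithinAt (affMap B c)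
      (LinearMap.toContinuousLinearMap (Matrix.toLin' B)) s x := by
    intro x _
    have h1 : HasFDerivAt (fun x => (LinearMap.toContinuousLinearMap (Matrix.toLin' B)) x + c)
        (LinearMap.toContinuousLinearMap (Matrix.toLin' B)) x :=
      ((LinearMap.toContinuousLinearMap (Matrix.toLin' B)).hasFDerivAt).add_const c
    exact h1.hasFDerivWithinAt
  have hinj : InjOn (affMap B c) s := (affMap_injective B hB c).injOn
  rw [integral_image_eq_integral_abs_det_fderiv_smul volume hs hder hinj g]
  have hdet : (LinearMap.toContinuousLinearMap (Matrix.toLin' B)).det = B.det := by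
    simp [ContinuousLinearMap.det]
  simp only [hdet, smul_eq_mul]
  rw [integral_const_mul]

lemma vol_image_affMap (B : Matrix (Fin n) (Fin n) ℝ) (hB : B.det ≠ 0) (c : Fin n → ℝ)
    {s : Set (Fin n → ℝ)} (hs : MeasurableSet s) :
    vol (affMap B c '' s) = |B.det| * vol s := by
  have h := integral_image_affMap B hB c hs (fun _ => (1:ℝ))
  simpa [vol, Measure.real] using h

lemma vol_eq_integral (s : Set (Fin n → ℝ)) : vol s = ∫ _x in s, (1:ℝ) := by
  simp [vol, Measure.real]


lemma integrableOn_of_compact {K : Set (Fin n → ℝ)} (hK : IsCompact K)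
    {f : (Fin n → ℝ) → ℝ} (hf : Continuous f) : IntegrableOn f K :=
  hf.continuousOn.integrableOn_compact hK

lemma affMap_apply (B : Matrix (Fin n) (Fin n) ℝ) (c x : Fin n → ℝ) (i : Fin n) :
    affMap B c x i = ∑ k, B i k * x k + c i := by
  simp [affMap, Matrix.mulVec, dotProduct]

lemma centroid_image_affMap (B : Matrix (Fin n) (Fin n) ℝ) (hB : B.det ≠ 0) (c : Fin n → ℝ)
    {K : Set (Fin n → ℝ)} (hK : IsCompact K) (hV : vol K ≠ 0) :
    centroid (affMap B c '' K) = affMap B c (centroid K) := by
  have hm : MeasurableSet K := hK.measurableSet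
  have habs : |B.det| ≠ 0 := abs_ne_zero.2 hB
  ext i
  have h1 : (∫ x in K, affMap B c x i) = (∑ k, B i k * (∫ x in K, x k)) + c i * vol K := by
    simp_rw [affMap_apply]
    rw [integral_add (integrableOn_of_compact hK (by fun_prop))
      (integrableOn_of_compact hK (by fun_prop)),
      integral_finsetSum _ (fun k _ => integrableOn_of_compact hK (by fun_prop))]
    have e2 : (∫ _x in K, c i) = c i * vol K := by
      rw [setIntegral_const]; simp [vol, Measure.real, mul_comm]
    have e3 : ∀ k, (∫ x in K, B i k * x k) = B i k * (∫ x in K, x k) :=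
      fun k => integral_const_mul (B i k) (fun x : Fin n → ℝ => x k)
    rw [e2]
    simp_rw [e3]
  rw [affMap_apply]
  show (vol (affMap B c '' K))⁻¹ * (∫ x in affMap B c '' K, x i) =
    (∑ k, B i k * ((vol K)⁻¹ * (∫ x in K, x k))) + c i
  rw [vol_image_affMap B hB c hm, integral_image_affMap B hB c hm (fun x => x i), h1]
  have e1 : ∀ S : ℝ, (|B.det| * vol K)⁻¹ * (|B.det| * (S + c i * vol K)) =
      (vol K)⁻¹ * S + c i := by
    intro S; field_simp
  rw [e1, Finset.mul_sum]
  congr 1
  exact Finset.sum_congr rfl fun k _ => by ring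

lemma covMatrix_image_affMap (B : Matrix (Fin n) (Fin n) ℝ) (hB : B.det ≠ 0) (c : Fin n → ℝ)
    {K : Set (Fin n → ℝ)} (hK : IsCompact K) (hV : vol K ≠ 0) :
    covMatrix (affMap B c '' K) = B * covMatrix K * B.transpose := by
  have hm : MeasurableSet K := hK.measurableSet
  have habs : |B.det| ≠ 0 := abs_ne_zero.2 hB
  ext i j
  simp only [covMatrix, Matrix.of_apply, Matrix.mul_apply, Matrix.transpose_apply]
  rw [vol_image_affMap B hB c hm, integral_image_affMap B hB c hm, centroid_image_affMap B hB c hK hV]
  have h1 : ∀ x : Fin n → ℝ, (affMap B c x i - affMap B c (centroid K) i) *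
      (affMap B c x j - affMap B c (centroid K) j) =
      ∑ k, ∑ l, B i k * B j l * ((x k - centroid K k) * (x l - centroid K l)) := by
    intro x
    have e : ∀ i, affMap B c x i - affMap B c (centroid K) i
        = ∑ k, B i k * (x k - centroid K k) := by
      intro i
      rw [affMap_apply, affMap_apply, add_sub_add_right_eq_sub, ← Finset.sum_sub_distrib]
      exact Finset.sum_congr rfl fun k _ => by ring
    rw [e i, e j, Finset.sum_mul_sum]
    exact Finset.sum_congr rfl fun k _ => Finset.sum_congr rfl fun l _ => by ring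
  simp_rw [h1]
  rw [integral_finsetSum]
  · simp_rw [Finset.sum_mul, Finset.mul_sum]
    rw [Finset.sum_comm]
    refine Finset.sum_congr rfl fun l _ => ?_
    rw [integral_finsetSum]
    · rw [Finset.mul_sum, Finset.mul_sum]
      refine Finset.sum_congr rfl fun k _ => ?_
      rw [integral_const_mul]
      field_simp
    · intro k _
      exact integrableOn_of_compact hK (by fun_prop)
  · intro k _
    exact integrableOn_of_compact hK (by fun_prop)

/-- Affine invariance of `det Σ_K / |K|^2`. -/
lemma ratio_image_affMap (B : Matrix (Fin n) (Fin n) ℝ) (hB : B.det ≠ 0) (c : Fin n → ℝ)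
    {K : Set (Fin n → ℝ)} (hK : IsCompact K) (hV : vol K ≠ 0) :
    (covMatrix (affMap B c '' K)).det / (vol (affMap B c '' K))^2 =
      (covMatrix K).det / (vol K)^2 := by
  rw [covMatrix_image_affMap B hB c hK hV, vol_image_affMap B hB c hK.measurableSet,
    Matrix.det_mul, Matrix.det_mul, Matrix.det_transpose, mul_pow, sq_abs]
  field_simp

end Vale.Agent.Lib.P254
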