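import Mathlib

open Matrix

namespace Vale.Agent.Lib.P254

variable {n : ℕ}

/-- The matrix `(n+1)(n+2) Σ_K` for the polytope in standard position, in terms of the
positive part `p` and the negative part `q` of the extra point. -/
noncomputable def gMatrix (p q : Fin n → ℝ) : Matrix (Fin n) (Fin n) ℝ :=
  Matrix.of fun i j =>
    (if i = j then 1 else 0) + (p i - q i) * (p j - q j)
      - p i * p j / (1 + ∑ k, q k) ^ 2
      - (1 + (p i - q i) - p i / (1 + ∑ k, q k)) *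
        (1 + (p j - q j) - p j / (1 + ∑ k, q k)) / (n + 1)

lemma det_gMatrix (p q : Fin n → ℝ) (hpq : ∀ j, p j * q j = 0) (hσ : 1 + ∑ k, q k ≠ 0) :
    (gMatrix p q).det =
      (((1 - ∑ k, p k + ∑ k, q k) ^ 2 + ∑ k, p k ^ 2) + (∑ k, q k ^ 2 + 1)
        - ((1 - ∑ k, p k + ∑ k, q k) ^ 2 + ∑ k, p k ^ 2) * (∑ k, q k ^ 2 + 1) /
          (1 + ∑ k, q k) ^ 2) / (n + 1) := by
  have hn : (n : ℝ) + 1 ≠ 0 := by positivity
  set σ := 1 + ∑ k, q k with hσdef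
  set ν : ℝ := 1 / (n + 1) with hν
  set θ : ℝ := 1 - 1 / σ with hθ
  let U : Matrix (Fin n) (Fin 3) ℝ := Matrix.of fun i r => ![1, p i, q i] r
  let K : Matrix (Fin 3) (Fin 3) ℝ :=
    !![-ν, -ν*θ, ν; -ν*θ, 1 - 1/σ^2 - ν*θ^2, -1 + ν*θ; ν, -1 + ν*θ, 1 - ν]
  have hG : gMatrix p q = 1 + U * (K * Uᵀ) := by
    ext i j
    simp only [gMatrix, U, K, Matrix.mul_apply, Fin.sum_univ_three, Matrix.one_apply,
      Matrix.add_apply, Matrix.of_apply, Matrix.transpose_apply, Matrix.cons_val_zero,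
      Matrix.cons_val_one, Matrix.cons_val_two, Matrix.cons_val', Matrix.empty_val',
      Matrix.cons_val_fin_one, Matrix.head_cons, Matrix.tail_cons, Matrix.head_fin_const]
    simp only [← hσdef]
    rw [hν, hθ]
    field_simp
    ring
  rw [hG, Matrix.det_one_add_mul_comm]
  have hgram : Uᵀ * U = !![(n:ℝ), ∑ k, p k, ∑ k, q k; ∑ k, p k, ∑ k, p k ^ 2, 0;
      ∑ k, q k, 0, ∑ k, q k ^ 2] := by
    ext r s
    fin_cases r <;> fin_cases s <;> simp [U, Matrix.mul_apply, sq, hpq, mul_comm]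
  rw [Matrix.mul_assoc, hgram, Matrix.det_fin_three]
  simp only [K, Matrix.mul_apply, Fin.sum_univ_three, Matrix.one_apply,
      Matrix.add_apply, Matrix.of_apply, Matrix.cons_val_zero,
      Matrix.cons_val_one, Matrix.cons_val_two, Matrix.cons_val', Matrix.empty_val',
      Matrix.cons_val_fin_one, Matrix.head_cons, Matrix.tail_cons, Matrix.head_fin_const]
  rw [hν, hθ]
  simp
  field_simp
  ring


lemma gMatrix_det_bounds (p q : Fin n → ℝ) (hp : ∀ j, 0 ≤ p j) (hq : ∀ j, 0 ≤ q j)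
    (hpq : ∀ j, p j * q j = 0) (hβ : 0 ≤ 1 - ∑ k, p k + ∑ k, q k) :
    0 ≤ (gMatrix p q).det ∧ (gMatrix p q).det ≤ (1 + ∑ k, q k) ^ 2 / (n + 1) := by
  have hd : 0 ≤ ∑ k, q k := Finset.sum_nonneg fun k _ => hq k
  have ha : 0 ≤ ∑ k, p k := Finset.sum_nonneg fun k _ => hp k
  have hA : ∑ k, p k ^ 2 ≤ (∑ k, p k) ^ 2 :=
    Finset.sum_sq_le_sq_sum_of_nonneg fun k _ => hp k
  have hC : ∑ k, q k ^ 2 ≤ (∑ k, q k) ^ 2 :=
    Finset.sum_sq_le_sq_sum_of_nonneg fun k _ => hq k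
  have hA0 : 0 ≤ ∑ k, p k ^ 2 := Finset.sum_nonneg fun k _ => sq_nonneg _
  have hC0 : 0 ≤ ∑ k, q k ^ 2 := Finset.sum_nonneg fun k _ => sq_nonneg _
  rw [det_gMatrix p q hpq (by positivity)]
  generalize (∑ k, p k) = a at *
  generalize (∑ k, q k) = d at *
  generalize (∑ k, p k ^ 2) = A at *
  generalize (∑ k, q k ^ 2) = C at *
  have hn : (0:ℝ) < n + 1 := by positivity
  have hσ : 0 < 1 + d := by positivity
  have hσ2 : 0 < (1 + d) ^ 2 := by positivity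
  have hX : (1 - a + d) ^ 2 + A ≤ (1 + d) ^ 2 := by
    nlinarith [mul_nonneg hβ ha]
  have hY : C + 1 ≤ (1 + d) ^ 2 := by nlinarith
  have hX0 : 0 ≤ (1 - a + d) ^ 2 + A := by positivity
  have hY0 : 0 ≤ C + 1 := by positivity
  constructor
  · apply div_nonneg _ hn.le
    have e : (1 - a + d) ^ 2 + A + (C + 1) - ((1 - a + d) ^ 2 + A) * (C + 1) / (1 + d) ^ 2 =
        ((1 - a + d) ^ 2 + A) * (1 - (C + 1) / (1 + d) ^ 2) + (C + 1) := by
      field_simp; ring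
    rw [e]
    have : (C + 1) / (1 + d) ^ 2 ≤ 1 := by rw [div_le_one hσ2]; exact hY
    nlinarith
  · apply div_le_div_of_nonneg_right _ hn.le
    have e : (1 - a + d) ^ 2 + A + (C + 1) - ((1 - a + d) ^ 2 + A) * (C + 1) / (1 + d) ^ 2 =
        (1 + d) ^ 2 - ((1 + d) ^ 2 - ((1 - a + d) ^ 2 + A)) * ((1 + d) ^ 2 - (C + 1)) /
          (1 + d) ^ 2 := by
      field_simp; ring
    rw [e]
    have : 0 ≤ ((1 + d) ^ 2 - ((1 - a + d) ^ 2 + A)) * ((1 + d) ^ 2 - (C + 1)) / (1 + d) ^ 2 :=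
      div_nonneg (mul_nonneg (by linarith) (by linarith)) hσ2.le
    linarith


lemma gMatrix_det_eq_imp (p q : Fin n → ℝ) (hp : ∀ j, 0 ≤ p j) (hq : ∀ j, 0 ≤ q j)
    (hpq : ∀ j, p j * q j = 0) (hβ : 0 ≤ 1 - ∑ k, p k + ∑ k, q k)
    (h : (gMatrix p q).det = (1 + ∑ k, q k) ^ 2 / (n + 1)) :
    (∑ k, q k = 0) ∨
      ((1 - ∑ k, p k + ∑ k, q k) * (∑ k, p k) = 0 ∧ (∑ k, p k) ^ 2 = ∑ k, p k ^ 2) := by
  have hd : 0 ≤ ∑ k, q k := Finset.sum_nonneg fun k _ => hq k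
  have ha : 0 ≤ ∑ k, p k := Finset.sum_nonneg fun k _ => hp k
  have hA : ∑ k, p k ^ 2 ≤ (∑ k, p k) ^ 2 :=
    Finset.sum_sq_le_sq_sum_of_nonneg fun k _ => hp k
  have hC : ∑ k, q k ^ 2 ≤ (∑ k, q k) ^ 2 :=
    Finset.sum_sq_le_sq_sum_of_nonneg fun k _ => hq k
  rw [det_gMatrix p q hpq (by positivity)] at h
  generalize (∑ k, p k) = a at *
  generalize (∑ k, q k) = d at *
  generalize (∑ k, p k ^ 2) = A at *
  generalize (∑ k, q k ^ 2) = C at *
  have hn : (0:ℝ) < n + 1 := by positivity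
  have hσ : 0 < 1 + d := by positivity
  have hσ2 : 0 < (1 + d) ^ 2 := by positivity
  have hprod : ((1 + d) ^ 2 - ((1 - a + d) ^ 2 + A)) * ((1 + d) ^ 2 - (C + 1)) = 0 := by
    field_simp at h
    nlinarith [h]
  rcases mul_eq_zero.1 hprod with h1 | h1
  · right
    have h2 : 2 * ((1 - a + d) * a) + (a ^ 2 - A) = 0 := by nlinarith
    have h3 : 0 ≤ (1 - a + d) * a := mul_nonneg hβ ha
    constructor
    · nlinarith
    · nlinarith
  · left
    nlinarith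

end Vale.Agent.Lib.P254
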