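import Vale.Agent.Lib.P254.SimplexMoments
import Vale.Agent.Lib.P254.Affine

open MeasureTheory Set

namespace Vale.Agent.Lib.P254

variable {n : ℕ}

/-- Vertices of the standard simplex: the origin and the basis vectors. -/
def stdVertices (n : ℕ) : Set (Fin n → ℝ) :=
  insert 0 (range fun l : Fin n => (Pi.single l (1:ℝ) : Fin n → ℝ))

lemma convex_solidSimplex (n : ℕ) (r : ℝ) : Convex ℝ (solidSimplex n r) := by
  intro x hx y hy a b ha hb hab
  refine ⟨fun i => ?_, ?_⟩
  · simp only [Pi.add_apply, Pi.smul_apply, smul_eq_mul]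
    exact add_nonneg (mul_nonneg ha (hx.1 i)) (mul_nonneg hb (hy.1 i))
  · simp only [Pi.add_apply, Pi.smul_apply, smul_eq_mul, Finset.sum_add_distrib, ← Finset.mul_sum]
    calc a * ∑ i, x i + b * ∑ i, y i ≤ a * r + b * r :=
          add_le_add (mul_le_mul_of_nonneg_left hx.2 ha) (mul_le_mul_of_nonneg_left hy.2 hb)
      _ = r := by rw [← add_mul, hab, one_mul]

lemma stdVertices_subset_solidSimplex (n : ℕ) : stdVertices n ⊆ solidSimplex n 1 := by
  intro x hx
  rcases hx with rfl | ⟨l, rfl⟩
  · exact ⟨fun i => le_refl _, by simp⟩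
  · refine ⟨fun i => ?_, ?_⟩
    · by_cases h : i = l
      · subst h; simp
      · simp [h]
    · simp

lemma solidSimplex_eq_convexHull (n : ℕ) :
    solidSimplex n 1 = convexHull ℝ (stdVertices n) := by
  apply Subset.antisymm
  · intro x hx
    have hconv := convex_convexHull ℝ (stdVertices n)
    have h0 : (0 : Fin n → ℝ) ∈ convexHull ℝ (stdVertices n) :=
      subset_convexHull ℝ _ (mem_insert _ _)
    have hl : ∀ l : Fin n, (Pi.single l (1:ℝ) : Fin n → ℝ) ∈ convexHull ℝ (stdVertices n) :=
      fun l => subset_convexHull ℝ _ (mem_insert_of_mem _ (mem_range_self l))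
    have key := hconv.sum_mem (t := (Finset.univ : Finset (Option (Fin n))))
      (w := fun o => match o with | none => 1 - ∑ i, x i | some l => x l)
      (z := fun o => match o with | none => 0 | some l => Pi.single l (1:ℝ))
      (by
        intro o _
        cases o with
        | none => simp only; linarith [hx.2]
        | some l => exact hx.1 l)
      (by simp [Fintype.sum_option])
      (by
        intro o _
        cases o with
        | none => exact h0
        | some l => exact hl l)
    have hx' : ∑ o : Option (Fin n),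
        (match o with | none => 1 - ∑ i, x i | some l => x l) •
        (match o with | none => (0 : Fin n → ℝ) | some l => Pi.single l (1:ℝ)) = x := by
      rw [Fintype.sum_option]
      ext i
      simp [Finset.sum_apply, Pi.single_apply]
    rw [hx'] at key
    exact key
  · exact convexHull_min (stdVertices_subset_solidSimplex n) (convex_solidSimplex n 1)


/-- The linear map fixing the basis vectors `e_l`, `l ≠ k`, and sending `e_k ↦ w`. -/
def flipMap (w : Fin n → ℝ) (k : Fin n) (x : Fin n → ℝ) : Fin n → ℝ :=
  x + x k • (w - Pi.single k 1)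

/-- The matrix of `flipMap w k`. -/
def flipMatrix (w : Fin n → ℝ) (k : Fin n) : Matrix (Fin n) (Fin n) ℝ :=
  1 + Matrix.vecMulVec (w - Pi.single k 1) (Pi.single k 1)

lemma flipMatrix_mulVec (w : Fin n → ℝ) (k : Fin n) (x : Fin n → ℝ) :
    (flipMatrix w k).mulVec x = flipMap w k x := by
  rw [flipMatrix, Matrix.add_mulVec, Matrix.one_mulVec, Matrix.vecMulVec_mulVec, flipMap]
  simp

lemma det_flipMatrix (w : Fin n → ℝ) (k : Fin n) : (flipMatrix w k).det = w k := by
  rw [flipMatrix, Matrix.vecMulVec_eq (Fin 1), Matrix.det_one_add_replicateCol_mul_replicateRow]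
  simp

lemma affMap_flipMatrix (w : Fin n → ℝ) (k : Fin n) :
    affMap (flipMatrix w k) 0 = flipMap w k := by
  ext x i
  simp [affMap, flipMatrix_mulVec]

lemma flipMap_apply (w : Fin n → ℝ) (k : Fin n) (x : Fin n → ℝ) (i : Fin n) :
    flipMap w k x i = x i + x k * (w i - if i = k then 1 else 0) := by
  simp [flipMap, Pi.single_apply]

lemma flipMap_image_subset (w : Fin n → ℝ) (k : Fin n) :
    flipMap w k '' solidSimplex n 1 ⊆ convexHull ℝ (insert w (stdVertices n)) := by
  have h1 : flipMap w k = ⇑(Matrix.toLin' (flipMatrix w k)) := by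
    ext x i
    rw [Matrix.toLin'_apply, flipMatrix_mulVec]
  rw [solidSimplex_eq_convexHull, h1, LinearMap.image_convexHull]
  apply convexHull_mono
  rintro _ ⟨v, hv, rfl⟩
  rw [← h1]
  rcases hv with rfl | ⟨l, rfl⟩
  · right; left
    ext i; simp [flipMap]
  · by_cases hlk : l = k
    · subst hlk
      left
      ext i; simp [flipMap]
    · right; right
      refine ⟨l, ?_⟩
      ext i; simp [flipMap, Pi.single_apply, hlk]


lemma stdVertices_nonempty (n : ℕ) : (stdVertices n).Nonempty := ⟨0, mem_insert _ _⟩

lemma mem_polytope_iff (w x : Fin n → ℝ) :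
    x ∈ convexHull ℝ (insert w (stdVertices n)) ↔
      ∃ y ∈ solidSimplex n 1, ∃ a b : ℝ, 0 ≤ a ∧ 0 ≤ b ∧ a + b = 1 ∧ a • w + b • y = x := by
  rw [convexHull_insert (stdVertices_nonempty n), mem_convexJoin, ← solidSimplex_eq_convexHull]
  constructor
  · rintro ⟨w', hw', y, hy, hseg⟩
    rw [mem_singleton_iff] at hw'
    subst hw'
    obtain ⟨a, b, ha, hb, hab, rfl⟩ := hseg
    exact ⟨y, hy, a, b, ha, hb, hab, rfl⟩
  · rintro ⟨y, hy, a, b, ha, hb, hab, rfl⟩
    exact ⟨w, mem_singleton _, y, hy, a, b, ha, hb, hab, rfl⟩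

/-- Covering: the polytope `conv(S ∪ {w})` is covered by `S` and the flipped simplices. -/
lemma polytope_subset (w : Fin n → ℝ) (hw : ∑ l, w l ≤ 1) :
    convexHull ℝ (insert w (stdVertices n)) ⊆
      solidSimplex n 1 ∪ ⋃ k ∈ {k : Fin n | w k < 0}, flipMap w k '' solidSimplex n 1 := by
  intro x hx
  obtain ⟨y, hy, a, b, ha, hb, hab, rfl⟩ := (mem_polytope_iff w x).1 hx
  set x := a • w + b • y with hx_def
  have hxl : ∀ l, x l = a * w l + b * y l := by intro l; simp [hx_def]
  have hsumx : ∑ l, x l = a * ∑ l, w l + b * ∑ l, y l := by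
    simp_rw [hxl, Finset.sum_add_distrib, Finset.mul_sum]
  by_cases hpos : ∀ l, 0 ≤ x l
  · left
    refine ⟨hpos, ?_⟩
    rw [hsumx]
    nlinarith [hy.2]
  · right
    push Not at hpos
    obtain ⟨l0, hl0⟩ := hpos
    have hwl0 : w l0 < 0 := by
      by_contra h
      push Not at h
      have : 0 ≤ x l0 := by
        rw [hxl]; exact add_nonneg (mul_nonneg ha h) (mul_nonneg hb (hy.1 l0))
      linarith
    set F : Finset (Fin n) := Finset.univ.filter (fun l => w l < 0) with hF
    have hFne : F.Nonempty := ⟨l0, by simp [hF, hwl0]⟩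
    obtain ⟨k, hkF, hkmax⟩ := Finset.exists_max_image F (fun l => x l / w l) hFne
    have hwk : w k < 0 := by simpa [hF] using hkF
    set ρ := x k / w k with hρ
    have hwk0 : w k ≠ 0 := hwk.ne
    have hρw : ρ * w k = x k := by rw [hρ]; exact div_mul_cancel₀ (x k) hwk0
    have hyk : x k - ρ * (w k - 1) = ρ := by linarith [hρw]
    have hρpos : 0 < ρ := by
      have h1 : x l0 / w l0 ≤ ρ := hkmax l0 (by simp [hF, hwl0])
      have h2 : 0 < x l0 / w l0 := div_pos_of_neg_of_neg hl0 hwl0
      linarith
    have hρa : ρ ≤ a := by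
      have : ρ = a + b * y k / w k := by
        rw [hρ, hxl]; field_simp
      rw [this]
      have : b * y k / w k ≤ 0 :=
        div_nonpos_of_nonneg_of_nonpos (mul_nonneg hb (hy.1 k)) hwk.le
      linarith
    rw [mem_iUnion₂]
    refine ⟨k, hwk, ?_⟩
    refine ⟨x - ρ • (w - Pi.single k 1), ⟨fun l => ?_, ?_⟩, ?_⟩
    · by_cases hlk : l = k
      · subst hlk
        simp only [Pi.sub_apply, Pi.smul_apply, Pi.single_eq_same, smul_eq_mul]
        nlinarith
      · simp only [Pi.sub_apply, Pi.smul_apply, smul_eq_mul, Pi.single_apply, hlk, if_false,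
          sub_zero]
        by_cases hwl : w l < 0
        · have h1 : x l / w l ≤ ρ := hkmax l (by simp [hF, hwl])
          have h2 : ρ * w l ≤ x l := (div_le_iff_of_neg hwl).1 h1
          linarith
        · push Not at hwl
          rw [hxl]
          nlinarith [hy.1 l, mul_nonneg (sub_nonneg.2 hρa) hwl, mul_nonneg hb (hy.1 l)]
    · have : ∑ l, ((x - ρ • (w - Pi.single k 1) : Fin n → ℝ) l) =
          ∑ l, x l - ρ * (∑ l, w l - 1) := by
        simp only [Pi.sub_apply, Pi.smul_apply, smul_eq_mul, Finset.sum_sub_distrib,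
          ← Finset.mul_sum, Finset.sum_pi_single', Finset.mem_univ, if_true]
      rw [this, hsumx]
      nlinarith [hy.2, mul_nonneg (sub_nonneg.2 hρa) (sub_nonneg.2 hw),
        mul_nonneg hb (sub_nonneg.2 hy.2)]
    · ext l
      rw [flipMap_apply]
      simp only [Pi.sub_apply, Pi.smul_apply, smul_eq_mul, Pi.single_apply, if_true]
      by_cases hlk : l = k
      · subst hlk; simp only [if_true]; rw [hyk]; linarith [hρw]
      · simp only [hlk, if_false]; rw [hyk]; ring


lemma volume_ker_eq_zero (f : (Fin n → ℝ) →ₗ[ℝ] ℝ) (hf : f ≠ 0) :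
    volume {x : Fin n → ℝ | f x = 0} = 0 := by
  have : {x : Fin n → ℝ | f x = 0} = (LinearMap.ker f : Set (Fin n → ℝ)) := by
    ext x; simp
  rw [this]
  apply Measure.addHaar_submodule
  intro h
  exact hf (LinearMap.ker_eq_top.1 h)

lemma continuous_flipMap (w : Fin n → ℝ) (k : Fin n) : Continuous (flipMap w k) := by
  unfold flipMap
  fun_prop

lemma isCompact_flipMap_image (w : Fin n → ℝ) (k : Fin n) :
    IsCompact (flipMap w k '' solidSimplex n 1) :=
  (isCompact_solidSimplex n 1).image (continuous_flipMap w k)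

/-- The pieces of the decomposition. -/
def piece (w : Fin n → ℝ) : Option (Fin n) → Set (Fin n → ℝ)
  | none => solidSimplex n 1
  | some k => if w k < 0 then flipMap w k '' solidSimplex n 1 else ∅

lemma measurableSet_piece (w : Fin n → ℝ) (o : Option (Fin n)) : MeasurableSet (piece w o) := by
  cases o with
  | none => exact measurableSet_solidSimplex n 1
  | some k =>
    simp only [piece]
    split_ifs
    · exact (isCompact_flipMap_image w k).measurableSet
    · exact MeasurableSet.empty

lemma polytope_eq_iUnion (w : Fin n → ℝ) (hw : ∑ l, w l ≤ 1) :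
    convexHull ℝ (insert w (stdVertices n)) = ⋃ o, piece w o := by
  apply Subset.antisymm
  · intro x hx
    rcases polytope_subset w hw hx with h | h
    · exact mem_iUnion.2 ⟨none, h⟩
    · rw [mem_iUnion₂] at h
      obtain ⟨k, hk, hxk⟩ := h
      refine mem_iUnion.2 ⟨some k, ?_⟩
      have hk' : w k < 0 := hk
      simp only [piece]
      rw [if_pos hk']
      exact hxk
  · intro x hx
    obtain ⟨o, ho⟩ := mem_iUnion.1 hx
    cases o with
    | none =>
      have : solidSimplex n 1 ⊆ convexHull ℝ (insert w (stdVertices n)) := by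
        rw [solidSimplex_eq_convexHull]
        exact convexHull_mono (subset_insert _ _)
      exact this ho
    | some k =>
      simp only [piece] at ho
      split_ifs at ho with hk
      · exact flipMap_image_subset w k ho
      · exact absurd ho (notMem_empty x)

lemma piece_none_inter_some (w : Fin n → ℝ) (k : Fin n) :
    piece w none ∩ piece w (some k) ⊆ {x | (LinearMap.proj k : (Fin n → ℝ) →ₗ[ℝ] ℝ) x = 0} := by
  rintro x ⟨hx1, hx2⟩
  simp only [piece] at hx1 hx2
  split_ifs at hx2 with hk
  · obtain ⟨y, hy, rfl⟩ := hx2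
    have h1 := hx1.1 k
    rw [flipMap_apply] at h1
    simp only [if_true] at h1
    have h2 := hy.1 k
    show flipMap w k y k = 0
    rw [flipMap_apply]
    simp only [if_true]
    nlinarith
  · exact absurd hx2 (notMem_empty x)

lemma piece_some_inter_some (w : Fin n → ℝ) (k l : Fin n) (hkl : k ≠ l) :
    piece w (some k) ∩ piece w (some l) ⊆
      {x | ((w l • (LinearMap.proj k : (Fin n → ℝ) →ₗ[ℝ] ℝ) -
        w k • (LinearMap.proj l : (Fin n → ℝ) →ₗ[ℝ] ℝ) : (Fin n → ℝ) →ₗ[ℝ] ℝ)) x = 0} := by
  rintro x ⟨hx1, hx2⟩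
  simp only [piece] at hx1 hx2
  split_ifs at hx1 with hk
  · split_ifs at hx2 with hl
    · obtain ⟨y, hy, hyx⟩ := hx1
      obtain ⟨y', hy', hyx'⟩ := hx2
      show w l * x k - w k * x l = 0
      have e1 : x k = y k * w k := by
        rw [← hyx, flipMap_apply]; simp only [if_true]; ring
      have e2 : x l = y l + y k * w l := by
        rw [← hyx, flipMap_apply]; simp only [hkl.symm, if_false]; ring
      have e3 : x l = y' l * w l := by
        rw [← hyx', flipMap_apply]; simp only [if_true]; ring
      have e4 : x k = y' k + y' l * w k := by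
        rw [← hyx', flipMap_apply]; simp only [hkl, if_false]; ring
      have h1 : 0 ≤ w l * x k - w k * x l := by
        rw [e1, e2]; nlinarith [hy.1 l]
      have h2 : w l * x k - w k * x l ≤ 0 := by
        rw [e3, e4]; nlinarith [hy'.1 k]
      linarith
    · exact absurd hx2 (notMem_empty x)
  · exact absurd hx1 (notMem_empty x)

lemma aedisjoint_piece (w : Fin n → ℝ) :
    Pairwise (Function.onFun (AEDisjoint volume) (piece w)) := by
  intro o o' hne
  show volume (piece w o ∩ piece w o') = 0
  have hproj : ∀ k : Fin n, (LinearMap.proj k : (Fin n → ℝ) →ₗ[ℝ] ℝ) ≠ 0 := by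
    intro k h
    have := congrArg (fun f : (Fin n → ℝ) →ₗ[ℝ] ℝ => f (Pi.single k 1)) h
    simp at this
  cases o with
  | none =>
    cases o' with
    | none => exact absurd rfl hne
    | some k =>
      exact measure_mono_null (piece_none_inter_some w k) (volume_ker_eq_zero _ (hproj k))
  | some k =>
    cases o' with
    | none =>
      rw [inter_comm]
      exact measure_mono_null (piece_none_inter_some w k) (volume_ker_eq_zero _ (hproj k))
    | some l =>
      have hkl : k ≠ l := fun h => hne (by rw [h])
      by_cases hk : w k < 0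
      · by_cases hl : w l < 0
        · refine measure_mono_null (piece_some_inter_some w k l hkl) (volume_ker_eq_zero _ ?_)
          intro h
          have := congrArg (fun f : (Fin n → ℝ) →ₗ[ℝ] ℝ => f (Pi.single k 1)) h
          simp [hkl.symm] at this
          linarith
        · simp [piece, hl]
      · simp [piece, hk]

/-- Integral over the polytope `conv(S ∪ {w})` as a sum over the pieces. -/
lemma integral_polytope (w : Fin n → ℝ) (hw : ∑ l, w l ≤ 1) (g : (Fin n → ℝ) → ℝ)
    (hg : Continuous g) :
    (∫ x in convexHull ℝ (insert w (stdVertices n)), g x) =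
      (∫ x in solidSimplex n 1, g x) +
        ∑ k, max (-(w k)) 0 * (∫ x in solidSimplex n 1, g (flipMap w k x)) := by
  have hfin : (insert w (stdVertices n)).Finite := by
    apply Set.Finite.insert
    apply Set.Finite.insert
    exact Set.finite_range _
  have hcomp : IsCompact (convexHull ℝ (insert w (stdVertices n))) :=
    hfin.isCompact_convexHull ℝ
  have hint : IntegrableOn g (⋃ o, piece w o) := by
    rw [← polytope_eq_iUnion w hw]
    exact integrableOn_of_compact hcomp hg
  rw [polytope_eq_iUnion w hw,
    integral_iUnion_ae (fun o => (measurableSet_piece w o).nullMeasurableSet) (aedisjoint_piece w)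
      hint, tsum_fintype, Fintype.sum_option]
  congr 1
  refine Finset.sum_congr rfl fun k _ => ?_
  simp only [piece]
  split_ifs with hk
  · rw [← affMap_flipMatrix, integral_image_affMap _ (by rw [det_flipMatrix]; exact hk.ne) _
      (measurableSet_solidSimplex n 1), det_flipMatrix, max_eq_left (by linarith),
      abs_of_neg hk]
  · rw [max_eq_right (by linarith)]
    simp

end Vale.Agent.Lib.P254
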