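import Vale.Agent.Lib.P254.Transfer

open MeasureTheory Set

namespace Vale.Agent.Lib.P254

variable {n : ℕ}

/-- Inequality: simplex plus one point. -/
theorem isotropic_le_simplex (u : Fin (n+1) → Fin n → ℝ) (hu : AffineIndependent ℝ u)
    (w : Fin n → ℝ) (T : Fin (n+1) → Fin n → ℝ) (hT : AffineIndependent ℝ T) :
    isotropicConstant (convexHull ℝ (insert w (range u))) ≤
      isotropicConstant (convexHull ℝ (range T)) := by
  unfold isotropicConstant
  rw [ratio_general_simplex T hT]
  obtain ⟨h0, h1⟩ := ratio_general_bounds u hu w
  exact Real.rpow_le_rpow h0 h1 (by positivity)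

/-- Equality case: simplex plus one point. -/
theorem isotropic_eq_simplex_iff (u : Fin (n+1) → Fin n → ℝ) (hu : AffineIndependent ℝ u)
    (w : Fin n → ℝ) (T : Fin (n+1) → Fin n → ℝ) (hT : AffineIndependent ℝ T) :
    isotropicConstant (convexHull ℝ (insert w (range u))) =
      isotropicConstant (convexHull ℝ (range T)) ↔
    ∃ T' : Fin (n+1) → Fin n → ℝ, AffineIndependent ℝ T' ∧
      convexHull ℝ (insert w (range u)) = convexHull ℝ (range T') := by
  constructor
  · intro h
    rcases Nat.eq_zero_or_pos n with hn | hn
    · subst hn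
      refine ⟨u, hu, ?_⟩
      have : w = u 0 := Subsingleton.elim _ _
      rw [this, insert_eq_of_mem (mem_range_self 0)]
    · unfold isotropicConstant at h
      rw [ratio_general_simplex T hT] at h
      obtain ⟨h0, h1⟩ := ratio_general_bounds u hu w
      have hz : (1 / (2 * (n:ℝ))) ≠ 0 := by
        have : (0:ℝ) < n := by exact_mod_cast hn
        positivity
      have hratio := Real.rpow_left_injOn hz (show _ ∈ {y : ℝ | 0 ≤ y} from h0)
        (show _ ∈ {y : ℝ | 0 ≤ y} from (simplexRatio_pos n).le) h
      rcases ratio_general_eq_imp u hu w hratio with hall | ⟨i, hi, hrest⟩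
      · refine ⟨u, hu, ?_⟩
        have hmem := mem_convexHull_of_coord_nonneg u hu w hall
        apply Subset.antisymm
        · apply convexHull_min _ (convex_convexHull ℝ _)
          rintro x (rfl | hx)
          · exact hmem
          · exact subset_convexHull ℝ _ hx
        · exact convexHull_mono (subset_insert _ _)
      · have heq := convexHull_insert_eq_update u w i (vertex_redundant u hu w i hi hrest)
        refine ⟨Function.update u i w, ?_, heq⟩
        apply affineIndependent_of_vol_pos
        rw [← heq]
        exact vol_general_pos u hu w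
  · rintro ⟨T', hT', heq⟩
    rw [heq]
    unfold isotropicConstant
    rw [ratio_general_simplex T hT, ratio_general_simplex T' hT']

lemma exists_succAbove_affineIndependent (v : Fin (n+2) → Fin n → ℝ)
    (hv : affineSpan ℝ (range v) = ⊤) :
    ∃ j : Fin (n+2), AffineIndependent ℝ (v ∘ j.succAbove) := by
  obtain ⟨t, hts, hspan, hind⟩ := exists_affineIndependent ℝ (Fin n → ℝ) (range v)
  rw [hv] at hspan
  have htfin : t.Finite := (finite_range v).subset hts
  have : Fintype t := htfin.fintype
  have hcard : Fintype.card t = n + 1 := by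
    have h1 : affineSpan ℝ (range (Subtype.val : t → Fin n → ℝ)) = ⊤ := by
      rw [Subtype.range_coe]; exact hspan
    have := (hind.affineSpan_eq_top_iff_card_eq_finrank_add_one).1 h1
    simpa using this
  choose f hf using fun x : t => hts x.2
  have hfinj : Function.Injective f := by
    intro x y hxy
    apply Subtype.ext
    rw [← hf x, ← hf y, hxy]
  have hex : ∃ j, j ∉ Finset.univ.image f := by
    by_contra hall
    push Not at hall
    have h1 : Finset.univ.image f = Finset.univ := Finset.eq_univ_iff_forall.2 hall
    have hc := Finset.card_image_of_injective Finset.univ hfinj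
    rw [h1] at hc
    simp [hcard] at hc
  obtain ⟨j, hj⟩ := hex
  have hrange : ∀ l : Fin (n+1), j.succAbove l ∈ Finset.univ.image f := by
    have hsub : Finset.univ.image f ⊆ Finset.univ.erase j := by
      intro k hk
      exact Finset.mem_erase.2 ⟨fun h => hj (h ▸ hk), Finset.mem_univ k⟩
    have hcardle : (Finset.univ.erase j).card ≤ (Finset.univ.image f).card := by
      rw [Finset.card_image_of_injective _ hfinj, Finset.card_erase_of_mem (Finset.mem_univ j)]
      simp [hcard]
    have heq := Finset.eq_of_subset_of_card_le hsub hcardle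
    intro l
    rw [heq]
    exact Finset.mem_erase.2 ⟨Fin.succAbove_ne j l, Finset.mem_univ _⟩
  have hmem : ∀ l : Fin (n+1), v (j.succAbove l) ∈ t := by
    intro l
    obtain ⟨x, -, hx⟩ := Finset.mem_image.1 (hrange l)
    rw [← hx, hf x]
    exact x.2
  refine ⟨j, ?_⟩
  let g : Fin (n+1) → t := fun l => ⟨v (j.succAbove l), hmem l⟩
  have hginj : Function.Injective g := by
    intro l l' hll
    have h1 : v (j.succAbove l) = v (j.succAbove l') := congrArg Subtype.val hll
    obtain ⟨x, -, hx⟩ := Finset.mem_image.1 (hrange l)
    obtain ⟨x', -, hx'⟩ := Finset.mem_image.1 (hrange l')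
    have hxx : x = x' := by
      apply Subtype.ext
      rw [← hf x, ← hf x', hx, hx', h1]
    rw [hxx, hx'] at hx
    exact Fin.succAbove_right_injective hx.symm
  exact hind.comp_embedding ⟨g, hginj⟩

lemma range_eq_insert_succAbove (v : Fin (n+2) → Fin n → ℝ) (j : Fin (n+2)) :
    range v = insert (v j) (range (v ∘ j.succAbove)) := by
  ext x
  constructor
  · rintro ⟨k, rfl⟩
    by_cases hk : k = j
    · rw [hk]; exact mem_insert _ _
    · obtain ⟨l, rfl⟩ := Fin.exists_succAbove_eq hk
      exact mem_insert_of_mem _ ⟨l, rfl⟩
  · rintro (rfl | ⟨l, rfl⟩)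
    · exact mem_range_self j
    · exact mem_range_self _

/-- The strong isotropic constant conjecture for convex polytopes with at most `n+2`
vertices, with its equality case. -/
theorem isotropic_few_vertices (v : Fin (n+2) → Fin n → ℝ)
    (hv : (interior (convexHull ℝ (range v))).Nonempty)
    (T : Fin (n+1) → Fin n → ℝ) (hT : AffineIndependent ℝ T) :
    isotropicConstant (convexHull ℝ (range v)) ≤ isotropicConstant (convexHull ℝ (range T)) ∧
    (isotropicConstant (convexHull ℝ (range v)) = isotropicConstant (convexHull ℝ (range T)) ↔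
      ∃ T' : Fin (n+1) → Fin n → ℝ, AffineIndependent ℝ T' ∧
        convexHull ℝ (range v) = convexHull ℝ (range T')) := by
  rw [interior_convexHull_nonempty_iff_affineSpan_eq_top] at hv
  obtain ⟨j, hj⟩ := exists_succAbove_affineIndependent v hv
  rw [range_eq_insert_succAbove v j]
  exact ⟨isotropic_le_simplex _ hj _ T hT, isotropic_eq_simplex_iff _ hj _ T hT⟩

end Vale.Agent.Lib.P254
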