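import Vale.Agent.Lib.P254.Final

open MeasureTheory Set

namespace Vale.Agent.Lib.P254

variable {n : ℕ}

lemma negp_eq (w : Fin n → ℝ) (k : Fin n) : negp w k = max (-(w k)) 0 := rfl

lemma posp_eq (w : Fin n → ℝ) (k : Fin n) : w k + negp w k = max (w k) 0 := by
  unfold negp
  rcases le_total (w k) 0 with h | h
  · rw [max_eq_left (by linarith), max_eq_right h]; ring
  · rw [max_eq_right (by linarith), max_eq_left h]; ring

/-- Exact formula in standard position. -/
lemma ratio_polytope_formula (w : Fin n → ℝ) (hw : ∑ l, w l ≤ 1) :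
    (covMatrix (convexHull ℝ (insert w (stdVertices n)))).det /
      (vol (convexHull ℝ (insert w (stdVertices n)))) ^ 2 =
    simplexRatio n *
      (1 - (1 - ((1 - ∑ l, w l) ^ 2 + ∑ k, (max (w k) 0) ^ 2) / (1 + ∑ k, max (-(w k)) 0) ^ 2) *
        (1 - (1 + ∑ k, (max (-(w k)) 0) ^ 2) / (1 + ∑ k, max (-(w k)) 0) ^ 2)) := by
  rw [ratio_polytope w hw, det_gMatrix _ _ (posp_mul_negp w)
    (by have := sum_negp_nonneg w; positivity)]
  have hσ : 0 < 1 + ∑ k, negp w k := by have := sum_negp_nonneg w; positivity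
  have e1 : 1 - ∑ k, (w k + negp w k) + ∑ k, negp w k = 1 - ∑ l, w l := by
    rw [Finset.sum_add_distrib]; ring
  simp_rw [e1, posp_eq]
  simp only [negp_eq] at hσ ⊢
  unfold simplexRatio
  have hn : (n:ℝ) + 1 ≠ 0 := by positivity
  field_simp
  ring

/-- Exact formula: the isotropic constant of the convex hull of a simplex and one more point,
in terms of the barycentric coordinates of the point. -/
lemma ratio_general_formula (u : Fin (n+1) → Fin n → ℝ) (hu : AffineIndependent ℝ u)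
    (w₀ : Fin n → ℝ) :
    (covMatrix (convexHull ℝ (insert w₀ (range u)))).det /
      (vol (convexHull ℝ (insert w₀ (range u)))) ^ 2 =
    simplexRatio n *
      (1 - (1 - (∑ i, (max ((simplexBasis u hu).coord i w₀) 0) ^ 2) /
            (∑ i, max ((simplexBasis u hu).coord i w₀) 0) ^ 2) *
        (1 - (1 + ∑ i, (max (-((simplexBasis u hu).coord i w₀)) 0) ^ 2) /
            (∑ i, max ((simplexBasis u hu).coord i w₀) 0) ^ 2)) := by
  obtain ⟨j, hj⟩ := exists_nonneg_coord u hu w₀
  obtain ⟨e2, himg⟩ := std_position u hu w₀ j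
  set β := fun i => (simplexBasis u hu).coord i w₀ with hβ
  set w : Fin n → ℝ := fun l => β (j.succAbove l) with hw_def
  have hj' : 0 ≤ β j := hj
  have e2' : ∑ l, w l = 1 - β j := e2
  have hw : ∑ l, w l ≤ 1 := by rw [e2']; linarith
  have hsplit : ∀ k, w k = max (w k) 0 - max (-(w k)) 0 := by
    intro k
    rcases le_total (w k) 0 with h | h
    · rw [max_eq_right h, max_eq_left (by linarith)]; ring
    · rw [max_eq_left h, max_eq_right (by linarith)]; ring
  have hsumsplit : ∑ l, w l = ∑ k, max (w k) 0 - ∑ k, max (-(w k)) 0 := by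
    rw [← Finset.sum_sub_distrib]
    exact Finset.sum_congr rfl fun k _ => hsplit k
  have s1 : ∑ i, (max (β i) 0) ^ 2 = (1 - ∑ l, w l) ^ 2 + ∑ k, (max (w k) 0) ^ 2 := by
    rw [Fin.sum_univ_succAbove _ j, max_eq_left hj', e2']
    ring
  have s2 : ∑ i, (max (-(β i)) 0) ^ 2 = ∑ k, (max (-(w k)) 0) ^ 2 := by
    rw [Fin.sum_univ_succAbove _ j, max_eq_right (by linarith)]
    have : ∑ l, (max (-(β (j.succAbove l))) 0) ^ 2 = ∑ k, (max (-(w k)) 0) ^ 2 := rfl
    rw [this]
    ring
  have s3 : ∑ i, max (β i) 0 = 1 + ∑ k, max (-(w k)) 0 := by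
    rw [Fin.sum_univ_succAbove _ j, max_eq_left hj']
    have : ∑ l, max (β (j.succAbove l)) 0 = ∑ k, max (w k) 0 := rfl
    rw [this]
    linarith
  rw [himg, ratio_image_affMap _ (det_frameMatrix_ne_zero u hu j) _ (isCompact_polytope w)
      (vol_polytope_pos w hw).ne', ratio_polytope_formula w hw, s1, s2, s3]

/-- Exact formula for the isotropic constant of the convex hull of an `n`-simplex and one more
point `w`, in terms of the barycentric coordinates `b.coord i w` of `w`. -/
theorem isotropic_formula (b : AffineBasis (Fin (n+1)) ℝ (Fin n → ℝ)) (w : Fin n → ℝ) :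
    isotropicConstant (convexHull ℝ (insert w (range b))) =
      isotropicConstant (convexHull ℝ (range b)) *
        (1 - (1 - (∑ i, (max (b.coord i w) 0) ^ 2) / (∑ i, max (b.coord i w) 0) ^ 2) *
          (1 - (1 + ∑ i, (max (-(b.coord i w)) 0) ^ 2) / (∑ i, max (b.coord i w) 0) ^ 2)) ^
          (1 / (2 * (n : ℝ))) := by
  have hb : simplexBasis (⇑b) b.ind = b := rfl
  have key := ratio_general_formula (⇑b) b.ind w
  rw [hb] at key
  unfold isotropicConstant
  rw [key, ratio_general_simplex (⇑b) b.ind]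
  apply Real.mul_rpow (simplexRatio_pos n).le
  -- nonnegativity of the factor
  have hsum : ∑ i, b.coord i w = 1 := b.sum_coord_apply_eq_one w
  have hsplit : ∀ i, b.coord i w = max (b.coord i w) 0 - max (-(b.coord i w)) 0 := by
    intro i
    rcases le_total (b.coord i w) 0 with h | h
    · rw [max_eq_right h, max_eq_left (by linarith)]; ring
    · rw [max_eq_left h, max_eq_right (by linarith)]; ring
  have hP : ∑ i, max (b.coord i w) 0 = 1 + ∑ i, max (-(b.coord i w)) 0 := by
    have : ∑ i, b.coord i w = ∑ i, max (b.coord i w) 0 - ∑ i, max (-(b.coord i w)) 0 := by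
      rw [← Finset.sum_sub_distrib]
      exact Finset.sum_congr rfl fun i _ => hsplit i
    linarith
  have hd : 0 ≤ ∑ i, max (-(b.coord i w)) 0 := Finset.sum_nonneg fun i _ => le_max_right _ _
  have hX : ∑ i, (max (b.coord i w) 0) ^ 2 ≤ (∑ i, max (b.coord i w) 0) ^ 2 :=
    Finset.sum_sq_le_sq_sum_of_nonneg fun i _ => le_max_right _ _
  have hY : ∑ i, (max (-(b.coord i w)) 0) ^ 2 ≤ (∑ i, max (-(b.coord i w)) 0) ^ 2 :=
    Finset.sum_sq_le_sq_sum_of_nonneg fun i _ => le_max_right _ _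
  have hX0 : 0 ≤ ∑ i, (max (b.coord i w) 0) ^ 2 := Finset.sum_nonneg fun i _ => sq_nonneg _
  have hY0 : 0 ≤ ∑ i, (max (-(b.coord i w)) 0) ^ 2 := Finset.sum_nonneg fun i _ => sq_nonneg _
  generalize (∑ i, (max (b.coord i w) 0) ^ 2) = X at *
  generalize (∑ i, (max (-(b.coord i w)) 0) ^ 2) = Y at *
  generalize (∑ i, max (-(b.coord i w)) 0) = d at *
  rw [hP] at hX ⊢
  have hσ2 : 0 < (1 + d) ^ 2 := by positivity
  have h1 : 0 ≤ 1 - X / (1 + d) ^ 2 := by
    rw [sub_nonneg, div_le_one hσ2]; exact hX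
  have h2 : 0 ≤ 1 - (1 + Y) / (1 + d) ^ 2 := by
    rw [sub_nonneg, div_le_one hσ2]; nlinarith
  have h3 : 1 - X / (1 + d) ^ 2 ≤ 1 := by
    have : 0 ≤ X / (1 + d) ^ 2 := div_nonneg hX0 hσ2.le
    linarith
  have h4 : 1 - (1 + Y) / (1 + d) ^ 2 ≤ 1 := by
    have : 0 ≤ (1 + Y) / (1 + d) ^ 2 := div_nonneg (by linarith) hσ2.le
    linarith
  nlinarith [mul_le_one₀ h3 h2 h4]

end Vale.Agent.Lib.P254
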