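import Mathlib

open MeasureTheory Set

namespace Vale.Agent.Lib.P254

/-- The solid simplex `{x : x ≥ 0, ∑ x ≤ r}` in `ℝ^n`. -/
def solidSimplex (n : ℕ) (r : ℝ) : Set (Fin n → ℝ) :=
  {x | (∀ i, 0 ≤ x i) ∧ ∑ i, x i ≤ r}

lemma isClosed_solidSimplex (n : ℕ) (r : ℝ) : IsClosed (solidSimplex n r) := by
  have : solidSimplex n r = (⋂ i, {x | 0 ≤ x i}) ∩ {x | ∑ i, x i ≤ r} := by
    ext x; simp [solidSimplex]
  rw [this]
  refine IsClosed.inter (isClosed_iInter fun i => ?_) ?_
  · exact isClosed_le continuous_const (continuous_apply i)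
  · exact isClosed_le (continuous_finsetSum _ fun i _ => continuous_apply i) continuous_const

lemma solidSimplex_subset_Icc (n : ℕ) (r : ℝ) :
    solidSimplex n r ⊆ Set.Icc 0 (fun _ => r) := by
  intro x hx
  refine ⟨fun i => hx.1 i, fun i => ?_⟩
  calc x i ≤ ∑ j, x j := Finset.single_le_sum (fun j _ => hx.1 j) (Finset.mem_univ i)
    _ ≤ r := hx.2

lemma isCompact_solidSimplex (n : ℕ) (r : ℝ) : IsCompact (solidSimplex n r) :=
  IsCompact.of_isClosed_subset isCompact_Icc (isClosed_solidSimplex n r)
    (solidSimplex_subset_Icc n r)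

lemma measurableSet_solidSimplex (n : ℕ) (r : ℝ) : MeasurableSet (solidSimplex n r) :=
  (isClosed_solidSimplex n r).measurableSet

lemma cons_mem_solidSimplex {n : ℕ} {r t : ℝ} {y : Fin n → ℝ} :
    (Fin.cons t y : Fin (n+1) → ℝ) ∈ solidSimplex (n+1) r ↔
      0 ≤ t ∧ y ∈ solidSimplex n (r - t) := by
  simp only [solidSimplex, mem_ofPred_eq, Fin.forall_fin_succ, Fin.cons_zero, Fin.cons_succ,
    Fin.sum_univ_succ]
  constructor
  · rintro ⟨⟨h0, hy⟩, hs⟩; exact ⟨h0, hy, by linarith⟩
  · rintro ⟨h0, hy, hs⟩; exact ⟨⟨h0, hy⟩, by linarith⟩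

lemma solidSimplex_eq_empty {n : ℕ} {r : ℝ} (hr : r < 0) : solidSimplex n r = ∅ := by
  ext x
  simp only [solidSimplex, mem_ofPred_eq, mem_empty_iff_false, iff_false, not_and, not_le]
  intro h
  exact lt_of_lt_of_le hr (Finset.sum_nonneg fun i _ => h i)

lemma integral_solidSimplex_succ {n : ℕ} (r : ℝ) (f : (Fin (n+1) → ℝ) → ℝ)
    (hf : IntegrableOn f (solidSimplex (n+1) r)) :
    ∫ x in solidSimplex (n+1) r, f x =
      ∫ t in Set.Icc 0 r, ∫ y in solidSimplex n (r - t), f (Fin.cons t y) := by
  have hS := measurableSet_solidSimplex (n+1) r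
  have he := volume_preserving_piFinSuccAbove (fun _ : Fin (n+1) => ℝ) 0
  set e := MeasurableEquiv.piFinSuccAbove (fun _ : Fin (n+1) => ℝ) 0 with he_def
  have hsymm : ∀ (t : ℝ) (y : Fin n → ℝ), e.symm (t, y) = Fin.cons t y := by
    intro t y
    rw [he_def]
    ext i
    simp [MeasurableEquiv.piFinSuccAbove]
  rw [← integral_indicator hS]
  have h1 : ∫ x, (solidSimplex (n+1) r).indicator f x =
      ∫ p : ℝ × (Fin n → ℝ), (solidSimplex (n+1) r).indicator f (e.symm p) :=
    (he.symm.integral_comp e.symm.measurableEmbedding _).symm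
  rw [h1, Measure.volume_eq_prod, integral_prod]
  · rw [← integral_indicator measurableSet_Icc]
    congr 1
    ext t
    by_cases ht : t ∈ Set.Icc 0 r
    · rw [indicator_of_mem ht, ← integral_indicator (measurableSet_solidSimplex n (r - t))]
      congr 1
      ext y
      rw [hsymm]
      by_cases hy : y ∈ solidSimplex n (r - t)
      · rw [indicator_of_mem hy, indicator_of_mem (cons_mem_solidSimplex.2 ⟨ht.1, hy⟩)]
      · rw [indicator_of_notMem hy, indicator_of_notMem]
        intro h
        exact hy (cons_mem_solidSimplex.1 h).2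
    · rw [indicator_of_notMem ht]
      have : ∀ y : Fin n → ℝ, (solidSimplex (n+1) r).indicator f (e.symm (t, y)) = 0 := by
        intro y
        rw [hsymm, indicator_of_notMem]
        intro h
        have h' := cons_mem_solidSimplex.1 h
        apply ht
        refine ⟨h'.1, ?_⟩
        by_contra hlt
        push Not at hlt
        have : solidSimplex n (r - t) = ∅ := solidSimplex_eq_empty (by linarith)
        rw [this] at h'
        exact h'.2
      simp [this]
  · rw [← Measure.volume_eq_prod]
    exact (he.symm.integrable_comp_emb e.symm.measurableEmbedding).2 (hf.integrable_indicator hS)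


lemma integrableOn_solidSimplex {n : ℕ} (r : ℝ) {f : (Fin n → ℝ) → ℝ} (hf : Continuous f) :
    IntegrableOn f (solidSimplex n r) :=
  hf.continuousOn.integrableOn_compact (isCompact_solidSimplex n r)

lemma integral_Icc_sub_pow (r : ℝ) (hr : 0 ≤ r) (m : ℕ) :
    ∫ t in Set.Icc 0 r, (r - t)^m = r^(m+1)/(m+1) := by
  rw [integral_Icc_eq_integral_Ioc, ← intervalIntegral.integral_of_le hr]
  have := intervalIntegral.integral_comp_sub_left (fun u : ℝ => u^m) r (a := 0) (b := r)
  simp only [sub_self, sub_zero] at this
  rw [this, integral_pow]; simp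

lemma integral_Icc_mul_sub_pow (r : ℝ) (hr : 0 ≤ r) (m : ℕ) :
    ∫ t in Set.Icc 0 r, t * (r - t)^m = r^(m+2)/((m+1)*(m+2)) := by
  rw [integral_Icc_eq_integral_Ioc, ← intervalIntegral.integral_of_le hr]
  have := intervalIntegral.integral_comp_sub_left (fun u : ℝ => (r - u) * u^m) r (a := 0) (b := r)
  simp only [sub_self, sub_zero, sub_sub_cancel] at this
  rw [this]
  have h2 : ∀ u : ℝ, (r - u) * u^m = r * u^m - u^(m+1) := by intro u; ring
  simp_rw [h2]
  rw [intervalIntegral.integral_sub, intervalIntegral.integral_const_mul, integral_pow, integral_pow]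
  · simp; field_simp; ring
  · exact (by fun_prop : Continuous fun u : ℝ => r * u^m).intervalIntegrable 0 r
  · exact (by fun_prop : Continuous fun u : ℝ => u^(m+1)).intervalIntegrable 0 r

lemma integral_Icc_sq_mul_sub_pow (r : ℝ) (hr : 0 ≤ r) (m : ℕ) :
    ∫ t in Set.Icc 0 r, t^2 * (r - t)^m = 2 * r^(m+3)/((m+1)*(m+2)*(m+3)) := by
  rw [integral_Icc_eq_integral_Ioc, ← intervalIntegral.integral_of_le hr]
  have := intervalIntegral.integral_comp_sub_left (fun u : ℝ => (r - u)^2 * u^m) r (a := 0) (b := r)
  simp only [sub_self, sub_zero, sub_sub_cancel] at this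
  rw [this]
  have h2 : ∀ u : ℝ, (r - u)^2 * u^m = r^2 * u^m - 2 * r * u^(m+1) + u^(m+2) := by intro u; ring
  simp_rw [h2]
  rw [intervalIntegral.integral_add, intervalIntegral.integral_sub,
    intervalIntegral.integral_const_mul, intervalIntegral.integral_const_mul,
    integral_pow, integral_pow, integral_pow]
  · simp; field_simp; ring
  · exact (by fun_prop : Continuous fun u : ℝ => r^2 * u^m).intervalIntegrable 0 r
  · exact (by fun_prop : Continuous fun u : ℝ => 2 * r * u^(m+1)).intervalIntegrable 0 r
  · exact (by fun_prop : Continuous fun u : ℝ => r^2 * u^m - 2 * r * u^(m+1)).intervalIntegrable 0 r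
  · exact (by fun_prop : Continuous fun u : ℝ => u^(m+2)).intervalIntegrable 0 r

/-- Volume of the solid simplex. -/
lemma integral_solidSimplex_one (n : ℕ) : ∀ r : ℝ, 0 ≤ r →
    ∫ _x in solidSimplex n r, (1:ℝ) = r^n / n.factorial := by
  induction n with
  | zero =>
    intro r hr
    have : solidSimplex 0 r = univ := by
      ext x; simp [solidSimplex, hr]
    rw [this]
    simp [Measure.real, volume_pi]
  | succ n ih =>
    intro r hr
    rw [integral_solidSimplex_succ r _ (integrableOn_solidSimplex r continuous_const)]
    rw [setIntegral_congr_fun measurableSet_Icc (g := fun t => (r - t)^n / n.factorial)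
      (fun t ht => ih (r - t) (by linarith [ht.2]))]
    simp_rw [div_eq_mul_inv]
    rw [integral_mul_const, integral_Icc_sub_pow r hr n, Nat.factorial_succ]
    push_cast
    field_simp

/-- First moments of the solid simplex. -/
lemma integral_solidSimplex_coord (n : ℕ) : ∀ r : ℝ, 0 ≤ r → ∀ i : Fin n,
    ∫ x in solidSimplex n r, x i = r^(n+1) / (n+1).factorial := by
  induction n with
  | zero => intro r hr i; exact i.elim0
  | succ n ih =>
    intro r hr i
    rw [integral_solidSimplex_succ r _ (integrableOn_solidSimplex r (continuous_apply i))]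
    refine Fin.cases ?_ (fun j => ?_) i
    · simp only [Fin.cons_zero]
      rw [setIntegral_congr_fun measurableSet_Icc (g := fun t => t * (r - t)^n * (n.factorial:ℝ)⁻¹)
        (fun t ht => by
          show ∫ _y in solidSimplex n (r - t), t = _
          have h1 := integral_solidSimplex_one n (r - t) (by linarith [ht.2])
          calc ∫ _y in solidSimplex n (r - t), t
              = ∫ _y in solidSimplex n (r - t), t * (1:ℝ) := by simp
            _ = t * ∫ _y in solidSimplex n (r - t), (1:ℝ) := integral_const_mul _ _
            _ = _ := by rw [h1]; ring)]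
      rw [integral_mul_const, integral_Icc_mul_sub_pow r hr n, Nat.factorial_succ,
        Nat.factorial_succ]
      push_cast
      field_simp
      ring
    · simp only [Fin.cons_succ]
      rw [setIntegral_congr_fun measurableSet_Icc
        (g := fun t => (r - t)^(n+1) * ((n+1).factorial:ℝ)⁻¹)
        (fun t ht => by
          show ∫ y in solidSimplex n (r - t), y j = _
          rw [ih (r - t) (by linarith [ht.2]) j]; ring)]
      rw [integral_mul_const, integral_Icc_sub_pow r hr (n+1), Nat.factorial_succ (n+1)]
      push_cast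
      field_simp


/-- Second moments of the solid simplex. -/
lemma integral_solidSimplex_coord_mul (n : ℕ) : ∀ r : ℝ, 0 ≤ r → ∀ i j : Fin n,
    ∫ x in solidSimplex n r, x i * x j =
      (if i = j then 2 else 1) * r^(n+2) / (n+2).factorial := by
  induction n with
  | zero => intro r hr i; exact i.elim0
  | succ n ih =>
    intro r hr i j
    rw [integral_solidSimplex_succ r (fun x => x i * x j) (integrableOn_solidSimplex r
      (by fun_prop))]
    refine Fin.cases ?_ (fun i' => ?_) i <;> refine Fin.cases ?_ (fun j' => ?_) j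
    · simp only [Fin.cons_zero, if_true]
      rw [setIntegral_congr_fun measurableSet_Icc
        (g := fun t => t^2 * (r - t)^n * (n.factorial:ℝ)⁻¹)
        (fun t ht => by
          show ∫ _y in solidSimplex n (r - t), t * t = _
          have h1 := integral_solidSimplex_one n (r - t) (by linarith [ht.2])
          calc ∫ _y in solidSimplex n (r - t), t * t
              = ∫ _y in solidSimplex n (r - t), (t * t) * (1:ℝ) := by simp
            _ = (t * t) * ∫ _y in solidSimplex n (r - t), (1:ℝ) := integral_const_mul _ _
            _ = _ := by rw [h1]; ring)]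
      rw [integral_mul_const, integral_Icc_sq_mul_sub_pow r hr n, Nat.factorial_succ,
        Nat.factorial_succ, Nat.factorial_succ]
      push_cast
      field_simp
      ring
    · simp only [Fin.cons_zero, Fin.cons_succ]
      rw [setIntegral_congr_fun measurableSet_Icc
        (g := fun t => t * (r - t)^(n+1) * ((n+1).factorial:ℝ)⁻¹)
        (fun t ht => by
          show ∫ y in solidSimplex n (r - t), t * y j' = _
          rw [integral_const_mul, integral_solidSimplex_coord n (r - t) (by linarith [ht.2]) j']
          ring)]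
      rw [integral_mul_const, integral_Icc_mul_sub_pow r hr (n+1), Nat.factorial_succ (n+2),
        Nat.factorial_succ (n+1)]
      have : (0 : Fin (n+1)) ≠ j'.succ := (Fin.succ_ne_zero j').symm
      simp only [this, if_false]
      push_cast
      field_simp
      ring
    · simp only [Fin.cons_zero, Fin.cons_succ]
      rw [setIntegral_congr_fun measurableSet_Icc
        (g := fun t => t * (r - t)^(n+1) * ((n+1).factorial:ℝ)⁻¹)
        (fun t ht => by
          show ∫ y in solidSimplex n (r - t), y i' * t = _
          rw [integral_mul_const, integral_solidSimplex_coord n (r - t) (by linarith [ht.2]) i']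
          ring)]
      rw [integral_mul_const, integral_Icc_mul_sub_pow r hr (n+1), Nat.factorial_succ (n+2),
        Nat.factorial_succ (n+1)]
      have : i'.succ ≠ (0 : Fin (n+1)) := Fin.succ_ne_zero i'
      simp only [this, if_false]
      push_cast
      field_simp
      ring
    · simp only [Fin.cons_succ]
      rw [setIntegral_congr_fun measurableSet_Icc
        (g := fun t => (r - t)^(n+2) * ((if i' = j' then (2:ℝ) else 1) * ((n+2).factorial:ℝ)⁻¹))
        (fun t ht => by
          show ∫ y in solidSimplex n (r - t), y i' * y j' = _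
          rw [ih (r - t) (by linarith [ht.2]) i' j']
          ring)]
      rw [integral_mul_const, integral_Icc_sub_pow r hr (n+2), Nat.factorial_succ (n+2)]
      simp only [Fin.succ_inj]
      push_cast
      field_simp

end Vale.Agent.Lib.P254
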