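import Vale.Agent.Lib.P254.Moments

open MeasureTheory Set

namespace Vale.Agent.Lib.P254

variable {n : ℕ}

lemma covMatrix_apply_eq {K : Set (Fin n → ℝ)} (hK : IsCompact K) (hV : vol K ≠ 0) (i j : Fin n) :
    covMatrix K i j = (vol K)⁻¹ * (∫ x in K, x i * x j)
      - ((vol K)⁻¹ * (∫ x in K, x i)) * ((vol K)⁻¹ * (∫ x in K, x j)) := by
  simp only [covMatrix, Matrix.of_apply]
  have e : ∀ x : Fin n → ℝ, (x i - centroid K i) * (x j - centroid K j) =
      x i * x j - centroid K j * x i - centroid K i * x j + centroid K i * centroid K j := by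
    intro x; ring
  simp_rw [e]
  have hc : (∫ _x in K, (centroid K i * centroid K j)) = vol K * (centroid K i * centroid K j) := by
    rw [setIntegral_const]; simp [vol, Measure.real]
  rw [integral_add (integrableOn_of_compact hK (by fun_prop)) (integrableOn_of_compact hK (by fun_prop)),
    integral_sub (integrableOn_of_compact hK (by fun_prop)) (integrableOn_of_compact hK (by fun_prop)),
    integral_sub (integrableOn_of_compact hK (by fun_prop)) (integrableOn_of_compact hK (by fun_prop)),
    integral_const_mul, integral_const_mul, hc]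
  simp only [centroid]
  field_simp
  ring

lemma finite_insert_stdVertices (w : Fin n → ℝ) : (insert w (stdVertices n)).Finite := by
  apply Set.Finite.insert
  apply Set.Finite.insert
  exact Set.finite_range _

lemma isCompact_polytope (w : Fin n → ℝ) :
    IsCompact (convexHull ℝ (insert w (stdVertices n))) :=
  (finite_insert_stdVertices w).isCompact_convexHull ℝ

lemma sum_negp_nonneg (w : Fin n → ℝ) : 0 ≤ ∑ k, negp w k :=
  Finset.sum_nonneg fun k _ => negp_nonneg w k

lemma vol_polytope_pos (w : Fin n → ℝ) (hw : ∑ l, w l ≤ 1) :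
    0 < vol (convexHull ℝ (insert w (stdVertices n))) := by
  rw [vol_polytope w hw]
  have := sum_negp_nonneg w
  positivity

lemma covMatrix_polytope (w : Fin n → ℝ) (hw : ∑ l, w l ≤ 1) :
    covMatrix (convexHull ℝ (insert w (stdVertices n))) =
      (1 / (((n:ℝ) + 1) * (n + 2))) • gMatrix (fun k => w k + negp w k) (negp w) := by
  ext i j
  rw [covMatrix_apply_eq (isCompact_polytope w) (vol_polytope_pos w hw).ne', vol_polytope w hw,
    integral_polytope_coord_mul w hw, integral_polytope_coord w hw, integral_polytope_coord w hw]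
  have hσ : 0 < 1 + ∑ k, negp w k := by have := sum_negp_nonneg w; positivity
  have hF : (n.factorial : ℝ) ≠ 0 := by positivity
  have h1 : ((n+1).factorial : ℝ) = (n + 1) * n.factorial := by
    rw [Nat.factorial_succ]; push_cast; ring
  have h2 : ((n+2).factorial : ℝ) = (n + 2) * ((n + 1) * n.factorial) := by
    rw [Nat.factorial_succ, Nat.factorial_succ]; push_cast; ring
  rw [h1, h2]
  simp only [Matrix.smul_apply, gMatrix, Matrix.of_apply, smul_eq_mul]
  generalize (∑ k, negp w k) = d at *
  generalize (n.factorial : ℝ) = F at *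
  have hn1 : (n:ℝ) + 1 ≠ 0 := by positivity
  have hn2 : (n:ℝ) + 2 ≠ 0 := by positivity
  field_simp
  ring


/-- The common value of `det Σ / vol^2` for all `n`-simplices. -/
noncomputable def simplexRatio (n : ℕ) : ℝ :=
  (1 / (((n:ℝ) + 1) * (n + 2))) ^ n * (n.factorial : ℝ) ^ 2 / (n + 1)

lemma ratio_polytope (w : Fin n → ℝ) (hw : ∑ l, w l ≤ 1) :
    (covMatrix (convexHull ℝ (insert w (stdVertices n)))).det /
      (vol (convexHull ℝ (insert w (stdVertices n)))) ^ 2 =
    (1 / (((n:ℝ) + 1) * (n + 2))) ^ n * (n.factorial : ℝ) ^ 2 *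
      ((gMatrix (fun k => w k + negp w k) (negp w)).det / (1 + ∑ k, negp w k) ^ 2) := by
  rw [covMatrix_polytope w hw, Matrix.det_smul, vol_polytope w hw, Fintype.card_fin]
  have hσ : 0 < 1 + ∑ k, negp w k := by have := sum_negp_nonneg w; positivity
  have hF : (n.factorial : ℝ) ≠ 0 := by positivity
  field_simp

lemma posp_nonneg (w : Fin n → ℝ) (k : Fin n) : 0 ≤ w k + negp w k := by
  unfold negp
  rcases le_total (w k) 0 with h | h
  · rw [max_eq_left (by linarith)]; linarith
  · rw [max_eq_right (by linarith)]; linarith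

lemma posp_mul_negp (w : Fin n → ℝ) (k : Fin n) : (w k + negp w k) * negp w k = 0 := by
  unfold negp
  rcases le_total (w k) 0 with h | h
  · rw [max_eq_left (by linarith)]; ring
  · rw [max_eq_right (by linarith)]; ring

lemma ratio_polytope_bounds (w : Fin n → ℝ) (hw : ∑ l, w l ≤ 1) :
    0 ≤ (covMatrix (convexHull ℝ (insert w (stdVertices n)))).det /
      (vol (convexHull ℝ (insert w (stdVertices n)))) ^ 2 ∧
    (covMatrix (convexHull ℝ (insert w (stdVertices n)))).det /
      (vol (convexHull ℝ (insert w (stdVertices n)))) ^ 2 ≤ simplexRatio n := by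
  rw [ratio_polytope w hw]
  have hσ : 0 < 1 + ∑ k, negp w k := by have := sum_negp_nonneg w; positivity
  have hβ : 0 ≤ 1 - ∑ k, (w k + negp w k) + ∑ k, negp w k := by
    rw [Finset.sum_add_distrib]; linarith
  obtain ⟨h0, h1⟩ := gMatrix_det_bounds (fun k => w k + negp w k) (negp w) (posp_nonneg w)
    (negp_nonneg w) (posp_mul_negp w) hβ
  have hc : 0 ≤ (1 / (((n:ℝ) + 1) * (n + 2))) ^ n * (n.factorial : ℝ) ^ 2 := by positivity
  constructor
  · exact mul_nonneg hc (div_nonneg h0 (by positivity))
  · have hs : simplexRatio n = (1 / (((n:ℝ) + 1) * (n + 2))) ^ n * (n.factorial : ℝ) ^ 2 *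
        (1 / (n + 1)) := by
      unfold simplexRatio; ring
    rw [hs]
    apply mul_le_mul_of_nonneg_left _ hc
    rw [div_le_iff₀ (by positivity)]
    calc (gMatrix (fun k => w k + negp w k) (negp w)).det
        ≤ (1 + ∑ k, negp w k) ^ 2 / (n + 1) := h1
      _ = 1 / (n + 1) * (1 + ∑ k, negp w k) ^ 2 := by ring

lemma ratio_simplex (n : ℕ) :
    (covMatrix (convexHull ℝ (stdVertices n))).det / (vol (convexHull ℝ (stdVertices n))) ^ 2 =
      simplexRatio n := by
  have h0 : insert (0 : Fin n → ℝ) (stdVertices n) = stdVertices n :=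
    insert_eq_of_mem (mem_insert _ _)
  have hw : ∑ l, (0 : Fin n → ℝ) l ≤ 1 := by simp
  have := ratio_polytope (0 : Fin n → ℝ) hw
  rw [h0] at this
  rw [this, det_gMatrix _ _ (posp_mul_negp 0)]
  · unfold simplexRatio
    simp [negp]
    ring
  · simp [negp]


lemma simplexRatio_pos (n : ℕ) : 0 < simplexRatio n := by
  unfold simplexRatio
  positivity

/-- Equality case in standard position. -/
lemma ratio_polytope_eq_imp (w : Fin n → ℝ) (hw : ∑ l, w l ≤ 1)
    (h : (covMatrix (convexHull ℝ (insert w (stdVertices n)))).det /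
      (vol (convexHull ℝ (insert w (stdVertices n)))) ^ 2 = simplexRatio n) :
    (∀ k, 0 ≤ w k) ∨ (∀ k, w k ≤ 0) ∨
      (∑ l, w l = 1 ∧ ∃ m, 0 < w m ∧ ∀ k, k ≠ m → w k ≤ 0) := by
  rw [ratio_polytope w hw] at h
  have hσ : 0 < 1 + ∑ k, negp w k := by have := sum_negp_nonneg w; positivity
  have hβ : 0 ≤ 1 - ∑ k, (w k + negp w k) + ∑ k, negp w k := by
    rw [Finset.sum_add_distrib]; linarith
  have hc : 0 < (1 / (((n:ℝ) + 1) * (n + 2))) ^ n * (n.factorial : ℝ) ^ 2 := by positivity
  have hs : simplexRatio n = (1 / (((n:ℝ) + 1) * (n + 2))) ^ n * (n.factorial : ℝ) ^ 2 *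
      (1 / (n + 1)) := by
    unfold simplexRatio; ring
  rw [hs] at h
  have h' := mul_left_cancel₀ hc.ne' h
  have hdet : (gMatrix (fun k => w k + negp w k) (negp w)).det =
      (1 + ∑ k, negp w k) ^ 2 / (n + 1) := by
    rw [div_eq_iff (by positivity)] at h'
    rw [h']; ring
  rcases gMatrix_det_eq_imp _ _ (posp_nonneg w) (negp_nonneg w) (posp_mul_negp w) hβ hdet with
    h1 | ⟨h1, h2⟩
  · left
    intro k
    have hk := (Finset.sum_eq_zero_iff_of_nonneg (fun k _ => negp_nonneg w k)).1 h1 k
      (Finset.mem_univ k)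
    unfold negp at hk
    by_contra hneg
    push Not at hneg
    rw [max_eq_left (by linarith)] at hk
    linarith
  · right
    have hp0 : ∀ k, w k + negp w k = 0 → w k ≤ 0 := by
      intro k hk
      linarith [negp_nonneg w k]
    by_cases ha : ∑ k, (w k + negp w k) = 0
    · left
      intro k
      exact hp0 k ((Finset.sum_eq_zero_iff_of_nonneg (fun k _ => posp_nonneg w k)).1 ha k
        (Finset.mem_univ k))
    · right
      have hβ0 : 1 - ∑ k, (w k + negp w k) + ∑ k, negp w k = 0 := by
        rcases mul_eq_zero.1 h1 with h | h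
        · exact h
        · exact absurd h ha
      refine ⟨by rw [Finset.sum_add_distrib] at hβ0; linarith, ?_⟩
      obtain ⟨m, hm⟩ : ∃ m, 0 < w m + negp w m := by
        by_contra hcon
        push Not at hcon
        apply ha
        exact le_antisymm (Finset.sum_nonpos fun k _ => hcon k)
          (Finset.sum_nonneg fun k _ => posp_nonneg w k)
      have hwm : 0 < w m := by
        by_contra hneg
        push Not at hneg
        unfold negp at hm
        rw [max_eq_left (by linarith)] at hm
        linarith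
      refine ⟨m, hwm, ?_⟩
      have e1 := Finset.add_sum_erase Finset.univ (fun k => w k + negp w k) (Finset.mem_univ m)
      have e2 := Finset.add_sum_erase Finset.univ (fun k => (w k + negp w k) ^ 2)
        (Finset.mem_univ m)
      have hr0 : 0 ≤ ∑ k ∈ Finset.univ.erase m, (w k + negp w k) :=
        Finset.sum_nonneg fun k _ => posp_nonneg w k
      have hr2 : ∑ k ∈ Finset.univ.erase m, (w k + negp w k) ^ 2 ≤
          (∑ k ∈ Finset.univ.erase m, (w k + negp w k)) ^ 2 :=
        Finset.sum_sq_le_sq_sum_of_nonneg fun k _ => posp_nonneg w k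
      rw [← e1, ← e2] at h2
      have hr : ∑ k ∈ Finset.univ.erase m, (w k + negp w k) = 0 := by
        have h3 : 0 ≤ (w m + negp w m) * ∑ k ∈ Finset.univ.erase m, (w k + negp w k) :=
          mul_nonneg hm.le hr0
        have h4 : (w m + negp w m) * ∑ k ∈ Finset.univ.erase m, (w k + negp w k) = 0 := by
          nlinarith
        rcases mul_eq_zero.1 h4 with h5 | h5
        · exact absurd h5 hm.ne'
        · exact h5
      intro k hk
      exact hp0 k ((Finset.sum_eq_zero_iff_of_nonneg (fun k _ => posp_nonneg w k)).1 hr k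
        (Finset.mem_erase.2 ⟨hk, Finset.mem_univ k⟩))

end Vale.Agent.Lib.P254
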