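import Vale.Agent.Lib.P254.Decomp
import Vale.Agent.Lib.P254.Algebra

open MeasureTheory Set

namespace Vale.Agent.Lib.P254

variable {n : ℕ}

/-- Negative part of the coordinates of `w`. -/
noncomputable def negp (w : Fin n → ℝ) (k : Fin n) : ℝ := max (-(w k)) 0

lemma negp_nonneg (w : Fin n → ℝ) (k : Fin n) : 0 ≤ negp w k := le_max_right _ _

lemma sum_mul_ite (f : Fin n → ℝ) (i : Fin n) :
    ∑ k, f k * (if i = k then (1:ℝ) else 0) = f i := by simp

lemma simplex_one (n : ℕ) : (∫ _x in solidSimplex n 1, (1:ℝ)) = 1 / n.factorial := by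
  rw [integral_solidSimplex_one n 1 zero_le_one, one_pow]

lemma simplex_coord (i : Fin n) : (∫ x in solidSimplex n 1, x i) = 1 / (n+1).factorial := by
  rw [integral_solidSimplex_coord n 1 zero_le_one i, one_pow]

lemma simplex_coord_mul (i j : Fin n) :
    (∫ x in solidSimplex n 1, x i * x j) = (1 + if i = j then (1:ℝ) else 0) / (n+2).factorial := by
  rw [integral_solidSimplex_coord_mul n 1 zero_le_one i j, one_pow, mul_one]
  split_ifs <;> norm_num

lemma vol_polytope (w : Fin n → ℝ) (hw : ∑ l, w l ≤ 1) :
    vol (convexHull ℝ (insert w (stdVertices n))) = (1 + ∑ k, negp w k) / n.factorial := by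
  rw [vol_eq_integral, integral_polytope w hw (fun _ => (1:ℝ)) continuous_const, simplex_one,
    ← Finset.sum_mul]
  simp only [negp]
  ring

lemma simplex_flip_coord (w : Fin n → ℝ) (k i : Fin n) :
    (∫ x in solidSimplex n 1, flipMap w k x i) =
      (1 + w i - if i = k then (1:ℝ) else 0) / (n+1).factorial := by
  simp_rw [flipMap_apply]
  rw [integral_add (integrableOn_solidSimplex 1 (by fun_prop))
    (integrableOn_solidSimplex 1 (by fun_prop)), integral_mul_const, simplex_coord, simplex_coord]
  ring

lemma integral_polytope_coord (w : Fin n → ℝ) (hw : ∑ l, w l ≤ 1) (i : Fin n) :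
    (∫ x in convexHull ℝ (insert w (stdVertices n)), x i) =
      (1 + (∑ k, negp w k) * (1 + w i) - negp w i) / (n+1).factorial := by
  rw [integral_polytope w hw (fun x => x i) (continuous_apply i), simplex_coord]
  simp_rw [simplex_flip_coord]
  have h : ∀ k, max (-(w k)) 0 * ((1 + w i - if i = k then (1:ℝ) else 0) / (n+1).factorial) =
      (negp w k * (1 + w i) - negp w k * (if i = k then (1:ℝ) else 0)) / (n+1).factorial := by
    intro k; simp only [negp]; ring
  simp_rw [h]
  rw [← Finset.sum_div, Finset.sum_sub_distrib, sum_mul_ite, ← Finset.sum_mul]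
  ring

lemma simplex_flip_coord_mul (w : Fin n → ℝ) (k i j : Fin n) :
    (∫ x in solidSimplex n 1, flipMap w k x i * flipMap w k x j) =
      ((1 + if i = j then (1:ℝ) else 0) + w i + w j + 2 * w i * w j
        - (if i = k then (1:ℝ) else 0) * (1 + w j)
        - (if j = k then (1:ℝ) else 0) * (1 + w i)) / (n+2).factorial := by
  have e : ∀ x : Fin n → ℝ, flipMap w k x i * flipMap w k x j =
      x i * x j + (w j - if j = k then (1:ℝ) else 0) * (x i * x k)
        + (w i - if i = k then (1:ℝ) else 0) * (x j * x k)
        + (w i - if i = k then (1:ℝ) else 0) * (w j - if j = k then (1:ℝ) else 0) * (x k * x k) := by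
    intro x
    rw [flipMap_apply, flipMap_apply]
    ring
  simp_rw [e]
  rw [integral_add (integrableOn_solidSimplex 1 (by fun_prop))
      (integrableOn_solidSimplex 1 (by fun_prop)),
    integral_add (integrableOn_solidSimplex 1 (by fun_prop))
      (integrableOn_solidSimplex 1 (by fun_prop)),
    integral_add (integrableOn_solidSimplex 1 (by fun_prop))
      (integrableOn_solidSimplex 1 (by fun_prop)),
    integral_const_mul, integral_const_mul, integral_const_mul,
    simplex_coord_mul, simplex_coord_mul, simplex_coord_mul, simplex_coord_mul]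
  simp only [if_true]
  ring

lemma integral_polytope_coord_mul (w : Fin n → ℝ) (hw : ∑ l, w l ≤ 1) (i j : Fin n) :
    (∫ x in convexHull ℝ (insert w (stdVertices n)), x i * x j) =
      ((1 + if i = j then (1:ℝ) else 0) * (1 + ∑ k, negp w k)
        + (w i + w j + 2 * w i * w j) * (∑ k, negp w k)
        - (1 + w j) * negp w i - (1 + w i) * negp w j) / (n+2).factorial := by
  rw [integral_polytope w hw (fun x => x i * x j) (by fun_prop), simplex_coord_mul]
  simp_rw [simplex_flip_coord_mul]
  have h : ∀ k, max (-(w k)) 0 * (((1 + if i = j then (1:ℝ) else 0) + w i + w j + 2 * w i * w j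
        - (if i = k then (1:ℝ) else 0) * (1 + w j)
        - (if j = k then (1:ℝ) else 0) * (1 + w i)) / (n+2).factorial) =
      (negp w k * ((1 + if i = j then (1:ℝ) else 0) + w i + w j + 2 * w i * w j)
        - (negp w k * (if i = k then (1:ℝ) else 0)) * (1 + w j)
        - (negp w k * (if j = k then (1:ℝ) else 0)) * (1 + w i)) / (n+2).factorial := by
    intro k; simp only [negp]; ring
  simp_rw [h]
  rw [← Finset.sum_div, Finset.sum_sub_distrib, Finset.sum_sub_distrib, ← Finset.sum_mul,
    ← Finset.sum_mul, ← Finset.sum_mul, sum_mul_ite, sum_mul_ite]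
  ring

end Vale.Agent.Lib.P254
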