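import Mathlib

/-!
# P254: the tail-flow lemma (abstract 1-D form)

`v` is the section volume of a convex corner along one coordinate, `m j` the first moments of the
sections, `N`, `R`, `Q j` the tail integrals.  If the bracket inequality holds for every tail
body (`H1`) and the deficit of the tail bodies is bounded below (`H2`), then the deficit of the
whole body is nonnegative: `2^(k+1) * R 0 * ∏ Q j 0 ≤ N 0 ^ (k+2)`.
-/

namespace Vale.Agent.P254.TailFlow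

open MeasureTheory Set Filter Topology

section basics

variable {T : ℝ} {f : ℝ → ℝ}

lemma ii_sub (hT : 0 < T) (hf : IntervalIntegrable f volume 0 T) {t : ℝ} (ht : t ∈ Icc 0 T) :
    IntervalIntegrable f volume t T := by
  apply hf.mono_set
  rw [uIcc_of_le ht.2, uIcc_of_le hT.le]
  exact Icc_subset_Icc ht.1 le_rfl

lemma tail_pos (hT : 0 < T) (hf : IntervalIntegrable f volume 0 T)
    (hpos : ∀ t ∈ Ioo 0 T, 0 < f t) {t : ℝ} (ht : t ∈ Ico 0 T) :
    0 < ∫ τ in t..T, f τ := by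
  apply intervalIntegral.intervalIntegral_pos_of_pos_on (ii_sub hT hf ⟨ht.1, ht.2.le⟩) _ ht.2
  intro x hx
  exact hpos x ⟨lt_of_le_of_lt ht.1 hx.1, hx.2⟩

lemma tail_cont (hT : 0 < T) (hf : IntervalIntegrable f volume 0 T) :
    ContinuousOn (fun t => ∫ τ in t..T, f τ) (Icc 0 T) := by
  have h := intervalIntegral.continuousOn_primitive_interval_left (a := 0) (b := T) (f := f)
    (μ := volume) (by
      have := hf.1
      rw [uIcc_of_le hT.le]
      exact (intervalIntegrable_iff_integrableOn_Icc_of_le hT.le).1 hf)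
  rwa [uIcc_of_le hT.le] at h

lemma tail_deriv (hT : 0 < T) (hf : IntervalIntegrable f volume 0 T)
    (hc : ContinuousOn f (Ioo 0 T)) {t : ℝ} (ht : t ∈ Ioo 0 T) :
    HasDerivAt (fun t => ∫ τ in t..T, f τ) (-f t) t := by
  apply intervalIntegral.integral_hasDerivAt_left (ii_sub hT hf ⟨ht.1.le, ht.2.le⟩)
  · exact hc.stronglyMeasurableAtFilter isOpen_Ioo t ht
  · exact hc.continuousAt (isOpen_Ioo.mem_nhds ht)

end basics

/-- **Tail-flow lemma.**  `v` = section volume, `m j` = section first moments, `N`, `R`, `Q j` the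
tail integrals.  `H1` is the bracket inequality for every tail body, `H2` a lower bound for the
deficit of the tail bodies.  Conclusion: the deficit of the whole body is nonnegative. -/
theorem tail_flow (k : ℕ) (T : ℝ) (hT : 0 < T) (v : ℝ → ℝ) (m : Fin k → ℝ → ℝ)
    (hv_cont : ContinuousOn v (Ioo 0 T)) (hv_int : IntervalIntegrable v volume 0 T)
    (hv_pos : ∀ t ∈ Ioo 0 T, 0 < v t)
    (hm_cont : ∀ j, ContinuousOn (m j) (Ioo 0 T))
    (hm_int : ∀ j, IntervalIntegrable (m j) volume 0 T)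
    (hm_pos : ∀ j, ∀ t ∈ Ioo 0 T, 0 < m j t)
    (N R : ℝ → ℝ) (Q : Fin k → ℝ → ℝ)
    (hN : ∀ t, N t = ∫ τ in t..T, v τ) (hR : ∀ t, R t = ∫ τ in t..T, N τ)
    (hQ : ∀ j t, Q j t = ∫ τ in t..T, m j τ) (C : ℝ)
    (H1 : ∀ t ∈ Ioo 0 T,
      N t ^ 2 / (v t * R t) + ∑ j, m j t * N t / (v t * Q j t) - (k + 2 : ℝ) ≤
        (k + 2 : ℝ) * Real.log (N t) - Real.log (2 * R t) - ∑ j, Real.log (2 * Q j t))
    (H2 : ∀ t ∈ Ioo 0 T,
      -C ≤ (k + 2 : ℝ) * Real.log (N t) - Real.log (2 * R t) - ∑ j, Real.log (2 * Q j t)) :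
    2 ^ (k + 1) * R 0 * ∏ j, Q j 0 ≤ N 0 ^ (k + 2) := by
  have hNf : N = fun t => ∫ τ in t..T, v τ := funext hN
  have hRf : R = fun t => ∫ τ in t..T, N τ := funext hR
  have hQf : ∀ j, Q j = fun t => ∫ τ in t..T, m j τ := fun j => funext (hQ j)
  -- N
  have hNc : ContinuousOn N (Icc 0 T) := by rw [hNf]; exact tail_cont hT hv_int
  have hNpos : ∀ t ∈ Ico 0 T, 0 < N t := fun t ht => by
    rw [hN]; exact tail_pos hT hv_int hv_pos ht
  have hNint : IntervalIntegrable N volume 0 T := by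
    apply ContinuousOn.intervalIntegrable; rwa [uIcc_of_le hT.le]
  have hNcI : ContinuousOn N (Ioo 0 T) := hNc.mono Ioo_subset_Icc_self
  have hNposI : ∀ t ∈ Ioo 0 T, 0 < N t := fun t ht => hNpos t ⟨ht.1.le, ht.2⟩
  have hNd : ∀ t ∈ Ioo 0 T, HasDerivAt N (-v t) t := fun t ht => by
    rw [hNf]; exact tail_deriv hT hv_int hv_cont ht
  -- R
  have hRc : ContinuousOn R (Icc 0 T) := by rw [hRf]; exact tail_cont hT hNint
  have hRpos : ∀ t ∈ Ico 0 T, 0 < R t := fun t ht => by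
    rw [hR]; exact tail_pos hT hNint hNposI ht
  have hRd : ∀ t ∈ Ioo 0 T, HasDerivAt R (-N t) t := fun t ht => by
    rw [hRf]; exact tail_deriv hT hNint hNcI ht
  -- Q
  have hQc : ∀ j, ContinuousOn (Q j) (Icc 0 T) := fun j => by
    rw [hQf j]; exact tail_cont hT (hm_int j)
  have hQpos : ∀ j, ∀ t ∈ Ico 0 T, 0 < Q j t := fun j t ht => by
    rw [hQ]; exact tail_pos hT (hm_int j) (hm_pos j) ht
  have hQd : ∀ j, ∀ t ∈ Ioo 0 T, HasDerivAt (Q j) (-m j t) t := fun j t ht => by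
    rw [hQf j]; exact tail_deriv hT (hm_int j) (hm_cont j) ht
  -- the deficit and Γ
  set F : ℝ → ℝ := fun t =>
    (k + 2 : ℝ) * Real.log (N t) - Real.log (2 * R t) - ∑ j, Real.log (2 * Q j t) with hF
  set Γ : ℝ → ℝ := fun t => N t * F t with hΓ
  have hIco : Ico 0 T ⊆ Icc 0 T := Ico_subset_Icc_self
  have hFc : ContinuousOn F (Ico 0 T) := by
    apply ContinuousOn.sub
    · apply ContinuousOn.sub
      · exact continuousOn_const.mul ((hNc.mono hIco).log fun t ht => (hNpos t ht).ne')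
      · exact ((continuousOn_const.mul (hRc.mono hIco))).log fun t ht =>
          (mul_pos two_pos (hRpos t ht)).ne'
    · apply continuousOn_finsetSum
      intro j _
      exact ((continuousOn_const.mul ((hQc j).mono hIco))).log fun t ht =>
        (mul_pos two_pos (hQpos j t ht)).ne'
  have hΓc : ContinuousOn Γ (Ico 0 T) := (hNc.mono hIco).mul hFc
  have hFd : ∀ t ∈ Ioo 0 T, HasDerivAt F
      ((k + 2 : ℝ) * (-v t / N t) - 2 * (-N t) / (2 * R t) - ∑ j, 2 * (-m j t) / (2 * Q j t)) t := by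
    intro t ht
    have htI : t ∈ Ico 0 T := ⟨ht.1.le, ht.2⟩
    have h1 : HasDerivAt (fun t => (k + 2 : ℝ) * Real.log (N t)) ((k + 2 : ℝ) * (-v t / N t)) t :=
      ((hNd t ht).log (hNpos t htI).ne').const_mul _
    have h2 : HasDerivAt (fun t => Real.log (2 * R t)) (2 * (-N t) / (2 * R t)) t :=
      ((hRd t ht).const_mul 2).log (by have := hRpos t htI; positivity)
    have h3 : HasDerivAt (fun t => ∑ j, Real.log (2 * Q j t)) (∑ j, 2 * (-m j t) / (2 * Q j t)) t := by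
      apply HasDerivAt.fun_sum
      intro j _
      exact ((hQd j t ht).const_mul 2).log (by have := hQpos j t htI; positivity)
    exact (h1.sub h2).sub h3
  have hΓd : ∀ t ∈ Ioo 0 T, HasDerivAt Γ
      (-v t * F t + N t * ((k + 2 : ℝ) * (-v t / N t) - 2 * (-N t) / (2 * R t)
        - ∑ j, 2 * (-m j t) / (2 * Q j t))) t := fun t ht => (hNd t ht).mul (hFd t ht)
  have hΓle : ∀ t ∈ Ioo 0 T, deriv Γ t ≤ 0 := by
    intro t ht
    rw [(hΓd t ht).deriv]
    have htI : t ∈ Ico 0 T := ⟨ht.1.le, ht.2⟩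
    have hv := hv_pos t ht
    have hNp := hNpos t htI
    have hRp := hRpos t htI
    have e1 : N t * ((k + 2 : ℝ) * (-v t / N t)) = -(k + 2 : ℝ) * v t := by
      field_simp
    have e2 : N t * (2 * (-N t) / (2 * R t)) = -(v t * (N t ^ 2 / (v t * R t))) := by
      field_simp
    have e3 : N t * ∑ j, 2 * (-m j t) / (2 * Q j t)
        = -(v t * ∑ j, m j t * N t / (v t * Q j t)) := by
      rw [Finset.mul_sum, Finset.mul_sum, ← Finset.sum_neg_distrib]
      apply Finset.sum_congr rfl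
      intro j _
      have hQp := hQpos j t htI
      field_simp
    have hF1 : N t ^ 2 / (v t * R t) + ∑ j, m j t * N t / (v t * Q j t) - (k + 2 : ℝ) ≤ F t :=
      H1 t ht
    have e0 : N t * ((k + 2 : ℝ) * (-v t / N t) - 2 * (-N t) / (2 * R t)
        - ∑ j, 2 * (-m j t) / (2 * Q j t))
        = -(k + 2 : ℝ) * v t + v t * (N t ^ 2 / (v t * R t))
          + v t * ∑ j, m j t * N t / (v t * Q j t) := by
      have hsplit : ∀ A B S : ℝ, N t * (A - B - S) = N t * A - N t * B - N t * S := by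
        intro A B S; ring
      rw [hsplit, e1, e2, e3]; ring
    rw [e0]
    nlinarith [mul_nonneg hv.le (sub_nonneg.2 hF1)]
  have hanti : AntitoneOn Γ (Ico 0 T) := by
    apply antitoneOn_of_deriv_nonpos (convex_Ico 0 T) hΓc
    · rw [interior_Ico]
      exact fun t ht => (hΓd t ht).differentiableAt.differentiableWithinAt
    · rw [interior_Ico]; exact hΓle
  -- lower bound near T
  have hlow : ∀ t ∈ Ioo 0 T, -C * N t ≤ Γ 0 := by
    intro t ht
    have htI : t ∈ Ico 0 T := ⟨ht.1.le, ht.2⟩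
    have h1 : Γ t ≤ Γ 0 := hanti ⟨le_rfl, hT⟩ htI ht.1.le
    have h2 : -C ≤ F t := H2 t ht
    have h3 : -C * N t ≤ Γ t := by
      simp only [hΓ]; nlinarith [hNpos t htI]
    linarith
  have hNT : N T = 0 := by rw [hN]; simp
  have hΓ0 : 0 ≤ Γ 0 := by
    have hne : (𝓝[Ioo 0 T] T).NeBot := by
      rw [← mem_closure_iff_nhdsWithin_neBot, closure_Ioo hT.ne]
      exact ⟨hT.le, le_rfl⟩
    have htend : Tendsto (fun t => -C * N t) (𝓝[Ioo 0 T] T) (𝓝 (-C * N T)) := by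
      have hc : ContinuousWithinAt N (Icc 0 T) T := hNc T ⟨hT.le, le_rfl⟩
      exact (hc.mono Ioo_subset_Icc_self).tendsto.const_mul _
    rw [hNT, mul_zero] at htend
    exact le_of_tendsto htend (eventually_mem_nhdsWithin.mono hlow)
  have hN0 : 0 < N 0 := hNpos 0 ⟨le_rfl, hT⟩
  have hR0 : 0 < R 0 := hRpos 0 ⟨le_rfl, hT⟩
  have hQ0 : ∀ j, 0 < Q j 0 := fun j => hQpos j 0 ⟨le_rfl, hT⟩
  have hF0 : 0 ≤ F 0 := by
    by_contra h
    have h' : F 0 < 0 := not_le.1 h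
    have : Γ 0 < 0 := by simp only [hΓ]; exact mul_neg_of_pos_of_neg hN0 h'
    linarith
  -- back to the product form
  have hprod : (∏ j, (2 * Q j 0)) = 2 ^ k * ∏ j, Q j 0 := by
    rw [Finset.prod_mul_distrib]; simp
  have hpos2 : 0 < 2 * R 0 * ∏ j, (2 * Q j 0) := by
    apply mul_pos (by positivity)
    exact Finset.prod_pos fun j _ => by have := hQ0 j; positivity
  have hlog : Real.log (2 * R 0 * ∏ j, (2 * Q j 0)) ≤ Real.log (N 0 ^ (k + 2)) := by
    rw [Real.log_mul (by positivity) (Finset.prod_pos fun j _ => by have := hQ0 j; positivity).ne',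
      Real.log_prod (fun j _ => by have := hQ0 j; positivity), Real.log_pow]
    simp only [hF] at hF0
    push_cast
    linarith
  have hfin := (Real.log_le_log_iff hpos2 (by positivity)).1 hlog
  calc 2 ^ (k + 1) * R 0 * ∏ j, Q j 0 = 2 * R 0 * ∏ j, (2 * Q j 0) := by rw [hprod]; ring
    _ ≤ N 0 ^ (k + 2) := hfin

/-- **Tail FTC lemma, product form.**  `v` = section area, `B₁`, `B₂` = section first moments,
`N`, `A₁`, `A₂` their tail integrals.  If for every tail the pointwise inequality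
`4 ((B₁ A₂ + A₁ B₂) N - A₁ A₂ v) ≤ v² N²` holds and `A₁ ≤ M N`, then
`4 A₁(0) A₂(0) / N(0) ≤ ∫₀ᵀ v²`. -/
theorem tail_ftc (T : ℝ) (hT : 0 < T) (v B₁ B₂ : ℝ → ℝ)
    (hv_cont : ContinuousOn v (Ioo 0 T)) (hv_int : IntervalIntegrable v volume 0 T)
    (hv_pos : ∀ t ∈ Ioo 0 T, 0 < v t)
    (hv2_int : IntervalIntegrable (fun t => v t ^ 2) volume 0 T)
    (hB₁_cont : ContinuousOn B₁ (Ioo 0 T)) (hB₁_int : IntervalIntegrable B₁ volume 0 T)
    (hB₁_nonneg : ∀ t ∈ Ioo 0 T, 0 ≤ B₁ t)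
    (hB₂_cont : ContinuousOn B₂ (Ioo 0 T)) (hB₂_int : IntervalIntegrable B₂ volume 0 T)
    (hB₂_nonneg : ∀ t ∈ Ioo 0 T, 0 ≤ B₂ t)
    (N A₁ A₂ : ℝ → ℝ)
    (hN : ∀ t, N t = ∫ τ in t..T, v τ) (hA₁ : ∀ t, A₁ t = ∫ τ in t..T, B₁ τ)
    (hA₂ : ∀ t, A₂ t = ∫ τ in t..T, B₂ τ)
    (M : ℝ) (hM : ∀ t ∈ Ioo 0 T, A₁ t ≤ M * N t)
    (H : ∀ t ∈ Ioo 0 T,
      4 * ((B₁ t * A₂ t + A₁ t * B₂ t) * N t - A₁ t * A₂ t * v t) ≤ v t ^ 2 * N t ^ 2) :
    4 * (A₁ 0 * A₂ 0) / N 0 ≤ ∫ t in (0:ℝ)..T, v t ^ 2 := by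
  have hNf : N = fun t => ∫ τ in t..T, v τ := funext hN
  have hA₁f : A₁ = fun t => ∫ τ in t..T, B₁ τ := funext hA₁
  have hA₂f : A₂ = fun t => ∫ τ in t..T, B₂ τ := funext hA₂
  have hIco : Ico 0 T ⊆ Icc 0 T := Ico_subset_Icc_self
  have hNc : ContinuousOn N (Icc 0 T) := by rw [hNf]; exact tail_cont hT hv_int
  have hNpos : ∀ t ∈ Ico 0 T, 0 < N t := fun t ht => by
    rw [hN]; exact tail_pos hT hv_int hv_pos ht
  have hNd : ∀ t ∈ Ioo 0 T, HasDerivAt N (-v t) t := fun t ht => by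
    rw [hNf]; exact tail_deriv hT hv_int hv_cont ht
  have hA₁c : ContinuousOn A₁ (Icc 0 T) := by rw [hA₁f]; exact tail_cont hT hB₁_int
  have hA₂c : ContinuousOn A₂ (Icc 0 T) := by rw [hA₂f]; exact tail_cont hT hB₂_int
  have hA₁d : ∀ t ∈ Ioo 0 T, HasDerivAt A₁ (-B₁ t) t := fun t ht => by
    rw [hA₁f]; exact tail_deriv hT hB₁_int hB₁_cont ht
  have hA₂d : ∀ t ∈ Ioo 0 T, HasDerivAt A₂ (-B₂ t) t := fun t ht => by
    rw [hA₂f]; exact tail_deriv hT hB₂_int hB₂_cont ht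
  have tail_nonneg : ∀ (B : ℝ → ℝ), IntervalIntegrable B volume 0 T →
      (∀ t ∈ Ioo 0 T, 0 ≤ B t) → ∀ t ∈ Icc 0 T, 0 ≤ ∫ τ in t..T, B τ := by
    intro B hBi hB t ht
    have hii := ii_sub hT hBi ht
    rw [intervalIntegral.integral_of_le ht.2]
    apply MeasureTheory.setIntegral_nonneg_ae measurableSet_Ioc
    have : ∀ᵐ x ∂volume, x ∈ Ioc t T → x ≠ T → 0 ≤ B x := by
      refine Filter.Eventually.of_forall fun x hx hne => hB x ⟨lt_of_le_of_lt ht.1 hx.1, lt_of_le_of_ne hx.2 hne⟩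
    have hT0 : ∀ᵐ x ∂(volume : Measure ℝ), x ≠ T := by
      have : (volume : Measure ℝ) {T} = 0 := Real.volume_singleton
      rw [ae_iff]; simp
    filter_upwards [this, hT0] with x hx hxT hmem using hx hmem hxT
  have hA₁nn : ∀ t ∈ Icc 0 T, 0 ≤ A₁ t := fun t ht => by
    rw [hA₁]; exact tail_nonneg B₁ hB₁_int hB₁_nonneg t ht
  have hA₂nn : ∀ t ∈ Icc 0 T, 0 ≤ A₂ t := fun t ht => by
    rw [hA₂]; exact tail_nonneg B₂ hB₂_int hB₂_nonneg t ht
  -- the tail of v^2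
  set S : ℝ → ℝ := fun t => ∫ τ in t..T, v τ ^ 2 with hS
  have hSc : ContinuousOn S (Icc 0 T) := tail_cont hT hv2_int
  have hv2c : ContinuousOn (fun t => v t ^ 2) (Ioo 0 T) := hv_cont.pow 2
  have hSd : ∀ t ∈ Ioo 0 T, HasDerivAt S (-(v t ^ 2)) t := fun t ht =>
    tail_deriv hT hv2_int hv2c ht
  have hSnn : ∀ t ∈ Icc 0 T, 0 ≤ S t := fun t ht =>
    tail_nonneg (fun t => v t ^ 2) hv2_int (fun t _ => sq_nonneg _) t ht
  set W : ℝ → ℝ := fun t => S t - 4 * (A₁ t * A₂ t / N t) with hW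
  have hWc : ContinuousOn W (Ico 0 T) := by
    apply (hSc.mono hIco).sub
    apply continuousOn_const.mul
    exact (((hA₁c.mono hIco).mul (hA₂c.mono hIco))).div (hNc.mono hIco)
      fun t ht => (hNpos t ht).ne'
  have hWd : ∀ t ∈ Ioo 0 T, HasDerivAt W
      (-(v t ^ 2) - 4 * (((-B₁ t) * A₂ t + A₁ t * (-B₂ t)) * N t - A₁ t * A₂ t * (-v t))
        / N t ^ 2) t := by
    intro t ht
    have htI : t ∈ Ico 0 T := ⟨ht.1.le, ht.2⟩
    have h1 : HasDerivAt (fun y => A₁ y * A₂ y / N y)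
        ((((-B₁ t) * A₂ t + A₁ t * (-B₂ t)) * N t - A₁ t * A₂ t * (-v t)) / N t ^ 2) t :=
      ((hA₁d t ht).mul (hA₂d t ht)).div (hNd t ht) (hNpos t htI).ne'
    have h2 : HasDerivAt (fun y => S y - 4 * (A₁ y * A₂ y / N y))
        (-(v t ^ 2) - 4 * ((((-B₁ t) * A₂ t + A₁ t * (-B₂ t)) * N t - A₁ t * A₂ t * (-v t))
          / N t ^ 2)) t := (hSd t ht).sub (h1.const_mul 4)
    have e : -(v t ^ 2) - 4 * (((-B₁ t) * A₂ t + A₁ t * (-B₂ t)) * N t - A₁ t * A₂ t * (-v t))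
        / N t ^ 2 = -(v t ^ 2) - 4 * ((((-B₁ t) * A₂ t + A₁ t * (-B₂ t)) * N t
          - A₁ t * A₂ t * (-v t)) / N t ^ 2) := by ring
    rw [e]
    exact h2
  have hWle : ∀ t ∈ Ioo 0 T, deriv W t ≤ 0 := by
    intro t ht
    rw [(hWd t ht).deriv]
    have htI : t ∈ Ico 0 T := ⟨ht.1.le, ht.2⟩
    have hNp := hNpos t htI
    have h := H t ht
    have e : -(v t ^ 2) - 4 * (((-B₁ t) * A₂ t + A₁ t * (-B₂ t)) * N t - A₁ t * A₂ t * (-v t))
        / N t ^ 2
        = -(v t ^ 2 * N t ^ 2 - 4 * ((B₁ t * A₂ t + A₁ t * B₂ t) * N t - A₁ t * A₂ t * v t))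
          / N t ^ 2 := by
      field_simp
      ring
    rw [e]
    apply div_nonpos_of_nonpos_of_nonneg _ (sq_nonneg _)
    linarith
  have hanti : AntitoneOn W (Ico 0 T) := by
    apply antitoneOn_of_deriv_nonpos (convex_Ico 0 T) hWc
    · rw [interior_Ico]
      exact fun t ht => (hWd t ht).differentiableAt.differentiableWithinAt
    · rw [interior_Ico]; exact hWle
  have hlow : ∀ t ∈ Ioo 0 T, -4 * (|M| * A₂ t) ≤ W 0 := by
    intro t ht
    have htI : t ∈ Ico 0 T := ⟨ht.1.le, ht.2⟩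
    have htc : t ∈ Icc 0 T := ⟨ht.1.le, ht.2.le⟩
    have h1 : W t ≤ W 0 := hanti ⟨le_rfl, hT⟩ htI ht.1.le
    have hNp := hNpos t htI
    have h2 : A₁ t * A₂ t / N t ≤ |M| * A₂ t := by
      rw [div_le_iff₀ hNp]
      have hA1 : A₁ t ≤ |M| * N t := (hM t ht).trans (by gcongr; exact le_abs_self M)
      have hA2 := hA₂nn t htc
      nlinarith [mul_le_mul_of_nonneg_right hA1 hA2]
    have h3 : 0 ≤ S t := hSnn t htc
    have h4 : -4 * (|M| * A₂ t) ≤ W t := by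
      simp only [hW]; linarith
    linarith
  have hA₂T : A₂ T = 0 := by rw [hA₂]; simp
  have hW0 : 0 ≤ W 0 := by
    have hne : (𝓝[Ioo 0 T] T).NeBot := by
      rw [← mem_closure_iff_nhdsWithin_neBot, closure_Ioo hT.ne]
      exact ⟨hT.le, le_rfl⟩
    have htend : Tendsto (fun t => -4 * (|M| * A₂ t)) (𝓝[Ioo 0 T] T)
        (𝓝 (-4 * (|M| * A₂ T))) := by
      have hc : ContinuousWithinAt A₂ (Icc 0 T) T := hA₂c T ⟨hT.le, le_rfl⟩
      exact ((hc.mono Ioo_subset_Icc_self).tendsto.const_mul _).const_mul _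
    rw [hA₂T, mul_zero, mul_zero] at htend
    exact le_of_tendsto htend (eventually_mem_nhdsWithin.mono hlow)
  have : W 0 = (∫ t in (0:ℝ)..T, v t ^ 2) - 4 * (A₁ 0 * A₂ 0 / N 0) := rfl
  rw [this] at hW0
  have e : 4 * (A₁ 0 * A₂ 0) / N 0 = 4 * (A₁ 0 * A₂ 0 / N 0) := by ring
  rw [e]; linarith

end Vale.Agent.P254.TailFlow
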