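import Vale.Agent.Lib.P254.Main

open MeasureTheory Set

namespace Vale.Agent.Lib.P254

variable {n : ℕ}

/-- The matrix whose columns are `u (j.succAbove l) - u j`. -/
def frameMatrix (u : Fin (n+1) → Fin n → ℝ) (j : Fin (n+1)) : Matrix (Fin n) (Fin n) ℝ :=
  Matrix.of fun i l => u (j.succAbove l) i - u j i

lemma affMap_frame_apply (u : Fin (n+1) → Fin n → ℝ) (j : Fin (n+1)) (x : Fin n → ℝ) :
    affMap (frameMatrix u j) (u j) x = ∑ l, x l • (u (j.succAbove l) - u j) + u j := by
  ext i
  simp [affMap, frameMatrix, Matrix.mulVec, dotProduct, Finset.sum_apply, mul_comm]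

lemma affMap_frame_zero (u : Fin (n+1) → Fin n → ℝ) (j : Fin (n+1)) :
    affMap (frameMatrix u j) (u j) 0 = u j := by
  rw [affMap_frame_apply]; simp

lemma affMap_frame_single (u : Fin (n+1) → Fin n → ℝ) (j : Fin (n+1)) (l : Fin n) :
    affMap (frameMatrix u j) (u j) (Pi.single l 1) = u (j.succAbove l) := by
  rw [affMap_frame_apply]
  simp [Pi.single_apply]

lemma affMap_frame_image_stdVertices (u : Fin (n+1) → Fin n → ℝ) (j : Fin (n+1)) :
    affMap (frameMatrix u j) (u j) '' stdVertices n = range u := by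
  ext x
  constructor
  · rintro ⟨v, hv, rfl⟩
    rcases hv with rfl | ⟨l, rfl⟩
    · exact ⟨j, (affMap_frame_zero u j).symm⟩
    · exact ⟨j.succAbove l, (affMap_frame_single u j l).symm⟩
  · rintro ⟨i, rfl⟩
    by_cases h : i = j
    · subst h; exact ⟨0, mem_insert _ _, affMap_frame_zero u i⟩
    · obtain ⟨l, rfl⟩ := Fin.exists_succAbove_eq h
      exact ⟨Pi.single l 1, mem_insert_of_mem _ (mem_range_self l), affMap_frame_single u j l⟩

lemma det_frameMatrix_ne_zero (u : Fin (n+1) → Fin n → ℝ) (hu : AffineIndependent ℝ u)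
    (j : Fin (n+1)) : (frameMatrix u j).det ≠ 0 := by
  have h1 := (affineIndependent_iff_linearIndependent_vsub ℝ u j).1 hu
  have h2 : LinearIndependent ℝ (fun l : Fin n => u (j.succAbove l) - u j) := by
    have := h1.comp (fun l : Fin n => (⟨j.succAbove l, Fin.succAbove_ne j l⟩ : {x // x ≠ j}))
      (by
        intro a b hab
        exact Fin.succAbove_right_injective (Subtype.mk.inj hab))
    exact this
  have hcol : (frameMatrix u j).col = fun l => u (j.succAbove l) - u j := by
    ext l i; simp [frameMatrix, Matrix.col_apply]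
  have h3 : LinearIndependent ℝ (frameMatrix u j).col := by
    rw [hcol]; exact h2
  exact ((Matrix.isUnit_iff_isUnit_det _).1 (Matrix.linearIndependent_cols_iff_isUnit.1 h3)).ne_zero

lemma affMap_image_convexHull (B : Matrix (Fin n) (Fin n) ℝ) (c : Fin n → ℝ)
    (s : Set (Fin n → ℝ)) :
    affMap B c '' convexHull ℝ s = convexHull ℝ (affMap B c '' s) := by
  have : affMap B c = ⇑((Matrix.toLin' B).toAffineMap + AffineMap.const ℝ (Fin n → ℝ) c) := by
    ext x i; simp [affMap]
  rw [this, AffineMap.image_convexHull]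

lemma isCompact_stdSimplex (n : ℕ) : IsCompact (convexHull ℝ (stdVertices n)) := by
  rw [← solidSimplex_eq_convexHull]; exact isCompact_solidSimplex n 1

lemma vol_stdSimplex_pos (n : ℕ) : 0 < vol (convexHull ℝ (stdVertices n)) := by
  have h0 : insert (0 : Fin n → ℝ) (stdVertices n) = stdVertices n :=
    insert_eq_of_mem (mem_insert _ _)
  have := vol_polytope_pos (0 : Fin n → ℝ) (by simp)
  rwa [h0] at this

/-- Every `n`-simplex has `det Σ / vol^2 = simplexRatio n`. -/
lemma ratio_general_simplex (u : Fin (n+1) → Fin n → ℝ) (hu : AffineIndependent ℝ u) :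
    (covMatrix (convexHull ℝ (range u))).det / (vol (convexHull ℝ (range u))) ^ 2 =
      simplexRatio n := by
  rw [← affMap_frame_image_stdVertices u 0, ← affMap_image_convexHull,
    ratio_image_affMap _ (det_frameMatrix_ne_zero u hu 0) _ (isCompact_stdSimplex n)
      (vol_stdSimplex_pos n).ne', ratio_simplex]

/-- The affine basis given by the vertices of an `n`-simplex in `ℝ^n`. -/
noncomputable def simplexBasis (u : Fin (n+1) → Fin n → ℝ) (hu : AffineIndependent ℝ u) :
    AffineBasis (Fin (n+1)) ℝ (Fin n → ℝ) :=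
  ⟨u, hu, by rw [hu.affineSpan_eq_top_iff_card_eq_finrank_add_one]; simp⟩

lemma simplexBasis_apply (u : Fin (n+1) → Fin n → ℝ) (hu : AffineIndependent ℝ u)
    (i : Fin (n+1)) : simplexBasis u hu i = u i := rfl

lemma sum_coord (u : Fin (n+1) → Fin n → ℝ) (hu : AffineIndependent ℝ u) (w₀ : Fin n → ℝ) :
    ∑ i, (simplexBasis u hu).coord i w₀ = 1 :=
  (simplexBasis u hu).sum_coord_apply_eq_one w₀

lemma comb_coord (u : Fin (n+1) → Fin n → ℝ) (hu : AffineIndependent ℝ u) (w₀ : Fin n → ℝ) :
    ∑ i, (simplexBasis u hu).coord i w₀ • u i = w₀ :=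
  (simplexBasis u hu).linear_combination_coord_eq_self w₀

lemma exists_nonneg_coord (u : Fin (n+1) → Fin n → ℝ) (hu : AffineIndependent ℝ u)
    (w₀ : Fin n → ℝ) : ∃ j, 0 ≤ (simplexBasis u hu).coord j w₀ := by
  by_contra h
  push Not at h
  have : ∑ i, (simplexBasis u hu).coord i w₀ < 0 :=
    Finset.sum_neg (fun i _ => h i) Finset.univ_nonempty
  linarith [sum_coord u hu w₀]

/-- Standard position: the configuration `(u, w₀)` is the image of the standard configuration
`(stdVertices, w)` where `w` lists the barycentric coordinates of `w₀` other than the `j`-th. -/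
lemma std_position (u : Fin (n+1) → Fin n → ℝ) (hu : AffineIndependent ℝ u) (w₀ : Fin n → ℝ)
    (j : Fin (n+1)) :
    ∑ l, (simplexBasis u hu).coord (j.succAbove l) w₀ = 1 - (simplexBasis u hu).coord j w₀ ∧
    convexHull ℝ (insert w₀ (range u)) = affMap (frameMatrix u j) (u j) ''
      convexHull ℝ (insert (fun l => (simplexBasis u hu).coord (j.succAbove l) w₀)
        (stdVertices n)) := by
  have hsum := sum_coord u hu w₀
  have hcomb := comb_coord u hu w₀
  set w : Fin n → ℝ := fun l => (simplexBasis u hu).coord (j.succAbove l) w₀ with hw_def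
  have e2 : ∑ l, w l = 1 - (simplexBasis u hu).coord j w₀ := by
    rw [Fin.sum_univ_succAbove _ j] at hsum
    simp only [hw_def]; linarith
  have e1 : ∑ l, w l • u (j.succAbove l) = w₀ - (simplexBasis u hu).coord j w₀ • u j := by
    rw [Fin.sum_univ_succAbove _ j] at hcomb
    simp only [hw_def]
    rw [eq_sub_iff_add_eq']
    exact hcomb
  have hwimg : affMap (frameMatrix u j) (u j) w = w₀ := by
    rw [affMap_frame_apply]
    simp_rw [smul_sub]
    rw [Finset.sum_sub_distrib, ← Finset.sum_smul, e1, e2]
    module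
  refine ⟨e2, ?_⟩
  rw [affMap_image_convexHull, image_insert_eq, hwimg, affMap_frame_image_stdVertices]

/-- Adding one point to a simplex: `det Σ / vol^2` lies in `[0, simplexRatio n]`. -/
lemma ratio_general_bounds (u : Fin (n+1) → Fin n → ℝ) (hu : AffineIndependent ℝ u)
    (w₀ : Fin n → ℝ) :
    0 ≤ (covMatrix (convexHull ℝ (insert w₀ (range u)))).det /
      (vol (convexHull ℝ (insert w₀ (range u)))) ^ 2 ∧
    (covMatrix (convexHull ℝ (insert w₀ (range u)))).det /
      (vol (convexHull ℝ (insert w₀ (range u)))) ^ 2 ≤ simplexRatio n := by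
  obtain ⟨j, hj⟩ := exists_nonneg_coord u hu w₀
  obtain ⟨e2, himg⟩ := std_position u hu w₀ j
  set w : Fin n → ℝ := fun l => (simplexBasis u hu).coord (j.succAbove l) w₀ with hw_def
  have hw : ∑ l, w l ≤ 1 := by rw [e2]; linarith
  rw [himg, ratio_image_affMap _ (det_frameMatrix_ne_zero u hu j) _ (isCompact_polytope w)
      (vol_polytope_pos w hw).ne']
  exact ratio_polytope_bounds w hw

lemma vol_general_pos (u : Fin (n+1) → Fin n → ℝ) (hu : AffineIndependent ℝ u)
    (w₀ : Fin n → ℝ) : 0 < vol (convexHull ℝ (insert w₀ (range u))) := by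
  obtain ⟨j, hj⟩ := exists_nonneg_coord u hu w₀
  obtain ⟨e2, himg⟩ := std_position u hu w₀ j
  set w : Fin n → ℝ := fun l => (simplexBasis u hu).coord (j.succAbove l) w₀ with hw_def
  have hw : ∑ l, w l ≤ 1 := by rw [e2]; linarith
  rw [himg, vol_image_affMap _ (det_frameMatrix_ne_zero u hu j) _
    (isCompact_polytope w).measurableSet]
  exact mul_pos (abs_pos.2 (det_frameMatrix_ne_zero u hu j)) (vol_polytope_pos w hw)

/-- Equality case, in barycentric coordinates. -/
lemma ratio_general_eq_imp (u : Fin (n+1) → Fin n → ℝ) (hu : AffineIndependent ℝ u)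
    (w₀ : Fin n → ℝ)
    (h : (covMatrix (convexHull ℝ (insert w₀ (range u)))).det /
      (vol (convexHull ℝ (insert w₀ (range u)))) ^ 2 = simplexRatio n) :
    (∀ k, 0 ≤ (simplexBasis u hu).coord k w₀) ∨
      ∃ i, 0 < (simplexBasis u hu).coord i w₀ ∧
        ∀ k, k ≠ i → (simplexBasis u hu).coord k w₀ ≤ 0 := by
  obtain ⟨j, hj⟩ := exists_nonneg_coord u hu w₀
  obtain ⟨e2, himg⟩ := std_position u hu w₀ j
  set w : Fin n → ℝ := fun l => (simplexBasis u hu).coord (j.succAbove l) w₀ with hw_def
  have hw : ∑ l, w l ≤ 1 := by rw [e2]; linarith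
  rw [himg, ratio_image_affMap _ (det_frameMatrix_ne_zero u hu j) _ (isCompact_polytope w)
      (vol_polytope_pos w hw).ne'] at h
  rcases ratio_polytope_eq_imp w hw h with h1 | h1 | ⟨h1, m, hm, h2⟩
  · left
    intro k
    by_cases hk : k = j
    · rw [hk]; exact hj
    · obtain ⟨l, rfl⟩ := Fin.exists_succAbove_eq hk
      exact h1 l
  · right
    refine ⟨j, ?_, ?_⟩
    · have : ∑ l, w l ≤ 0 := Finset.sum_nonpos fun l _ => h1 l
      linarith
    · intro k hk
      obtain ⟨l, rfl⟩ := Fin.exists_succAbove_eq hk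
      exact h1 l
  · right
    refine ⟨j.succAbove m, hm, ?_⟩
    intro k hk
    by_cases hkj : k = j
    · rw [hkj]; linarith
    · obtain ⟨l, rfl⟩ := Fin.exists_succAbove_eq hkj
      exact h2 l (fun hlm => hk (by rw [hlm]))

lemma mem_convexHull_of_coord_nonneg (u : Fin (n+1) → Fin n → ℝ) (hu : AffineIndependent ℝ u)
    (w₀ : Fin n → ℝ) (h : ∀ k, 0 ≤ (simplexBasis u hu).coord k w₀) :
    w₀ ∈ convexHull ℝ (range u) := by
  have key := (convex_convexHull ℝ (range u)).sum_mem (t := Finset.univ)
    (w := fun k => (simplexBasis u hu).coord k w₀) (z := u) (fun k _ => h k)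
    (sum_coord u hu w₀) (fun k _ => subset_convexHull ℝ _ (mem_range_self k))
  rwa [comb_coord u hu w₀] at key

lemma vertex_redundant (u : Fin (n+1) → Fin n → ℝ) (hu : AffineIndependent ℝ u)
    (w₀ : Fin n → ℝ) (i : Fin (n+1)) (hi : 0 < (simplexBasis u hu).coord i w₀)
    (h : ∀ k, k ≠ i → (simplexBasis u hu).coord k w₀ ≤ 0) :
    u i ∈ convexHull ℝ (range (Function.update u i w₀)) := by
  set β := fun k => (simplexBasis u hu).coord k w₀ with hβ
  have hβpos : 0 < β i := hi
  have hβi : β i ≠ 0 := hβpos.ne'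
  have hsum : ∑ k, β k = 1 := sum_coord u hu w₀
  have hcomb : ∑ k, β k • u k = w₀ := comb_coord u hu w₀
  rw [Fin.sum_univ_succAbove _ i] at hsum hcomb
  have key := (convex_convexHull ℝ (range (Function.update u i w₀))).sum_mem (t := Finset.univ)
    (w := fun k => if k = i then 1 / β i else - β k / β i) (z := Function.update u i w₀)
    (by
      intro k _
      by_cases hk : k = i
      · simp only [hk, if_true]; positivity
      · simp only [hk, if_false]
        exact div_nonneg (neg_nonneg.2 (h k hk)) hβpos.le)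
    (by
      rw [Fin.sum_univ_succAbove _ i]
      simp only [if_true, Fin.succAbove_ne, if_false]
      rw [← Finset.sum_div, Finset.sum_neg_distrib]
      have : ∑ l, β (i.succAbove l) = 1 - β i := by linarith
      rw [this]
      field_simp
      ring)
    (fun k _ => subset_convexHull ℝ _ (mem_range_self k))
  have e : ∑ k, (if k = i then 1 / β i else - β k / β i) • Function.update u i w₀ k = u i := by
    rw [Fin.sum_univ_succAbove _ i]
    simp only [if_true, Fin.succAbove_ne, if_false, Function.update_self]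
    have e1 : ∀ l, (-β (i.succAbove l) / β i) • Function.update u i w₀ (i.succAbove l) =
        (-(1 / β i)) • (β (i.succAbove l) • u (i.succAbove l)) := by
      intro l
      rw [Function.update_of_ne (Fin.succAbove_ne i l), smul_smul]
      congr 1; ring
    simp_rw [e1]
    rw [← Finset.smul_sum]
    have e2 : ∑ l, β (i.succAbove l) • u (i.succAbove l) = w₀ - β i • u i := by
      rw [eq_sub_iff_add_eq']; exact hcomb
    rw [e2, smul_sub, smul_smul]
    have : -(1 / β i) * β i = -1 := by field_simp
    rw [this]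
    module
  rwa [e] at key

lemma convexHull_insert_eq_update (u : Fin (n+1) → Fin n → ℝ) (w₀ : Fin n → ℝ) (i : Fin (n+1))
    (hmem : u i ∈ convexHull ℝ (range (Function.update u i w₀))) :
    convexHull ℝ (insert w₀ (range u)) = convexHull ℝ (range (Function.update u i w₀)) := by
  apply Subset.antisymm
  · apply convexHull_min _ (convex_convexHull ℝ _)
    rintro x (rfl | ⟨k, rfl⟩)
    · exact subset_convexHull ℝ _ ⟨i, Function.update_self i x u⟩
    · by_cases hk : k = i
      · rw [hk]; exact hmem
      · exact subset_convexHull ℝ _ ⟨k, Function.update_of_ne hk w₀ u⟩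
  · apply convexHull_mono
    rintro x ⟨k, rfl⟩
    by_cases hk : k = i
    · rw [hk, Function.update_self]; exact mem_insert _ _
    · rw [Function.update_of_ne hk]; exact mem_insert_of_mem _ (mem_range_self k)

lemma affineIndependent_of_vol_pos (T : Fin (n+1) → Fin n → ℝ)
    (h : 0 < vol (convexHull ℝ (range T))) : AffineIndependent ℝ T := by
  by_contra hnot
  have hspan : affineSpan ℝ (range T) ≠ ⊤ := by
    intro htop
    apply hnot
    rw [affineIndependent_iff_le_finrank_vectorSpan ℝ T (n := n) (by simp),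
      ← direction_affineSpan, htop, AffineSubspace.direction_top]
    simp
  have h0 : volume (convexHull ℝ (range T)) = 0 :=
    measure_mono_null (convexHull_subset_affineSpan (range T))
      (Measure.addHaar_affineSubspace volume _ hspan)
  simp [vol, h0] at h

end Vale.Agent.Lib.P254
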